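import Vale.Agent.P154.GW.MainGW

/-!
# P154: the regular `d`-ary tree as a particular fixed tree

`regT d n : GT n` is the `d`-ary tree cut at depth `n`.  `regE` identifies the colourings `Conf q d n` of `Defs.lean` with `ConfT q n (regT d n)`;
under this identification `lik = likT`, hence `aTV q d lam n = aT q lam n (regT d n)`.
The inequalities for fixed trees (`XK_succ`, ...) give `x (n+1) ≤ d lam^2 x n - lam^4 (x n)^2 / 10` for `x n = xT lam n (regT d n)`.
-/

namespace Vale.Agent.P154

open Finset Filter Topology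

/-- the `d`-ary tree cut at depth `n` -/
def regT (d : ℕ) : (n : ℕ) → GT n
  | 0 => ()
  | n + 1 => ⟨d, fun _ => regT d n⟩

/-- colourings of depth `n` of the `d`-ary tree, in the two descriptions -/
def regE (q d : ℕ) : (n : ℕ) → Conf q d n ≃ ConfT q n (regT d n)
  | 0 => Equiv.refl (Fin q)
  | n + 1 => Equiv.piCongrRight (fun _ : Fin d => regE q d n)

theorem lik_regE (q d : ℕ) (lam : ℝ) : ∀ (n : ℕ) (i : Fin q) (η : Conf q d n),
    likT q lam n (regT d n) i (regE q d n η) = lik q d lam n i η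
  | 0, _, _ => rfl
  | n + 1, i, η => by
    change ∏ k : Fin d, ∑ j : Fin q, potts q lam i j * likT q lam n (regT d n) j (regE q d n (η k)) =
      ∏ k : Fin d, ∑ j : Fin q, potts q lam i j * lik q d lam n j (η k)
    refine Finset.prod_congr rfl fun k _ => Finset.sum_congr rfl fun j _ => ?_
    rw [lik_regE q d lam n j (η k)]

theorem marg_regE (q d : ℕ) (lam : ℝ) (n : ℕ) (η : Conf q d n) :
    margT q lam n (regT d n) (regE q d n η) = marg q d lam n η := by
  unfold margT marg
  refine Finset.sum_congr rfl fun i _ => ?_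
  rw [lik_regE]

theorem post_regE (q d : ℕ) (lam : ℝ) (n : ℕ) (i : Fin q) (η : Conf q d n) :
    postT q lam n (regT d n) i (regE q d n η) = post q d lam n i η := by
  unfold postT post
  rw [lik_regE, marg_regE]

theorem aT_regT (q d : ℕ) (lam : ℝ) (n : ℕ) : aT q lam n (regT d n) = aTV q d lam n := by
  unfold aT aTV
  rw [← Equiv.sum_comp (regE q d n)]
  refine Finset.sum_congr rfl fun η _ => ?_
  rw [marg_regE]
  congr 2
  refine Finset.sum_congr rfl fun i _ => ?_
  rw [post_regE]

/-- `k` equal children -/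
theorem XK_const (lam : ℝ) (h0 : 0 ≤ lam) (h1 : lam < 1) (n : ℕ) (t : GT n) (k : ℕ) :
    XK lam n k (fun _ => t) ≤ k * (lam ^ 2 * xT lam n t) ∧
      (2 ≤ k → XK lam n k (fun _ => t) ≤ k * (lam ^ 2 * xT lam n t) - 1 / 10 * (lam ^ 2 * xT lam n t) ^ 2) := by
  have hx0 := xT_nonneg lam h0 h1 n t
  have hx1 := xT_le_one lam h0 h1 n t
  have hy0 : 0 ≤ lam ^ 2 * xT lam n t := mul_nonneg (sq_nonneg lam) hx0
  have hy1 : lam ^ 2 * xT lam n t ≤ 1 := by nlinarith [sq_nonneg lam]
  induction k with
  | zero =>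
    refine ⟨?_, fun h => by omega⟩
    rw [XK_zero]
    simp
  | succ k ih =>
    obtain ⟨i1, i2⟩ := ih
    have hs := XK_succ lam h0 h1 n k (fun _ => t)
    have htail : Fin.tail (fun _ : Fin (k + 1) => t) = fun _ : Fin k => t := rfl
    rw [htail] at hs
    have hX0 := XK_nonneg lam h0 h1 n k (fun _ => t)
    set y := lam ^ 2 * xT lam n t with hy
    set X := XK lam n k (fun _ => t) with hX
    refine ⟨?_, fun hk => ?_⟩
    · push_cast
      nlinarith [mul_nonneg hy0 hX0]
    · push_cast
      rcases Nat.lt_or_ge k 2 with hlt | hge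
      · have hk1 : k = 1 := by omega
        subst hk1
        push_cast at i1 ⊢
        nlinarith [mul_nonneg hy0 hX0, mul_le_mul_of_nonneg_right i1 (by linarith : (0:ℝ) ≤ 1 - y / 10)]
      · have := i2 hge
        nlinarith [mul_nonneg hy0 hX0]

theorem xreg_step (d : ℕ) (hd : 2 ≤ d) (lam : ℝ) (h0 : 0 ≤ lam) (h1 : lam < 1) (n : ℕ) :
    xT lam (n + 1) (regT d (n + 1)) ≤
      d * lam ^ 2 * xT lam n (regT d n) - 1 / 10 * lam ^ 4 * xT lam n (regT d n) ^ 2 := by
  rw [xT_succ lam h0 h1 n (regT d (n + 1))]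
  have := (XK_const lam h0 h1 n (regT d n) d).2 hd
  calc XK lam n d (fun _ => regT d n) ≤ _ := this
    _ = _ := by ring

/-- nonreconstruction on the `d`-ary tree, from the fixed-tree inequalities -/
theorem reg_nonreconstruction (d : ℕ) (hd : 2 ≤ d) (lam : ℝ) (h0 : 0 ≤ lam)
    (h2 : (d : ℝ) * lam ^ 2 ≤ 1) : Tendsto (fun n => aTV 3 d lam n) atTop (𝓝 0) := by
  have hd2 : (2 : ℝ) ≤ d := by exact_mod_cast hd
  have h1 : lam < 1 := by nlinarith [sq_nonneg lam]
  have hx : Tendsto (fun n => xT lam n (regT d n)) atTop (𝓝 0) := by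
    rcases h0.eq_or_lt with h | h
    · have hz : ∀ n, xT lam (n + 1) (regT d (n + 1)) = 0 := by
        intro n
        have a := xreg_step d hd lam h0 h1 n
        have b := xT_nonneg lam h0 h1 (n + 1) (regT d (n + 1))
        rw [← h] at a b ⊢
        apply le_antisymm _ b
        simpa using a
      rw [← tendsto_add_atTop_iff_nat 1]
      simp only [hz]
      exact tendsto_const_nhds
    · exact seq_zeroGW (fun n => xT lam n (regT d n)) (d * lam ^ 2) (1 / 10 * lam ^ 4) h2
        (by positivity) (fun n => xT_nonneg lam h0 h1 n _) (xreg_step d hd lam h0 h1)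
  have he : (fun n => aTV 3 d lam n) = fun n => aT 3 lam n (regT d n) :=
    funext fun n => (aT_regT 3 d lam n).symm
  rw [he]
  exact tendsto_of_sq_le _ _ (fun n => (aT_sq_le lam h0 h1 n _).1) (fun n => (aT_sq_le lam h0 h1 n _).2) hx

end Vale.Agent.P154
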