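import Vale.Agent.P154.GW.Ext2
import Vale.Agent.P154.GW.Reg
import Vale.Agent.P154.Conv

/-!
# P154: the disagreement bound: no reconstruction if `d * |lam| ≤ 1` (any number of colours, both tree models)

`tvT q lam n T i i'` is the total variation distance between the laws of the spins at depth `n` of `T` given the root spins `i`, `i'`.
It satisfies `tvT (n+1) T ≤ 1 - ∏ over the children (1 - |lam| * tvT n (subtree))`, and it dominates `aT`.
-/

namespace Vale.Agent.P154

open Finset Filter Topology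

theorem half_abs_eq {ι : Type} [Fintype ι] (a b : ι → ℝ) (ha : ∑ x, a x = 1) (hb : ∑ x, b x = 1) :
    (1 / 2) * ∑ x, |a x - b x| = 1 - ∑ x, min (a x) (b x) := by
  have h : ∀ x, |a x - b x| = a x + b x - 2 * min (a x) (b x) := by
    intro x
    rcases le_total (a x) (b x) with h | h
    · rw [min_eq_left h, abs_of_nonpos (by linarith)]
      ring
    · rw [min_eq_right h, abs_of_nonneg (by linarith)]
      ring
  simp only [h]
  rw [Finset.sum_sub_distrib, Finset.sum_add_distrib, ha, hb, ← Finset.mul_sum]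
  ring

theorem prod_min_le {ι : Type} (s : Finset ι) (a b : ι → ℝ) (ha : ∀ x, 0 ≤ a x) (hb : ∀ x, 0 ≤ b x) :
    ∏ x ∈ s, min (a x) (b x) ≤ min (∏ x ∈ s, a x) (∏ x ∈ s, b x) := by
  apply le_min
  · exact Finset.prod_le_prod (fun x _ => le_min (ha x) (hb x)) (fun x _ => min_le_left _ _)
  · exact Finset.prod_le_prod (fun x _ => le_min (ha x) (hb x)) (fun x _ => min_le_right _ _)

/-- total variation distance between the laws of the depth-`n` spins given two root spins -/
noncomputable def tvT (q : ℕ) (lam : ℝ) (n : ℕ) (T : GT n) (i i' : Fin q) : ℝ :=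
  (1 / 2) * ∑ η : ConfT q n T, |likT q lam n T i η - likT q lam n T i' η|

/-- law of the depth-`n` spins of a subtree given the spin of the parent of its root -/
noncomputable def msgT (q : ℕ) (lam : ℝ) (n : ℕ) (T : GT n) (i : Fin q) (ξ : ConfT q n T) : ℝ :=
  ∑ j : Fin q, potts q lam i j * likT q lam n T j ξ

theorem msgT_nonneg (q : ℕ) (lam : ℝ) (hp : ∀ i j : Fin q, 0 ≤ potts q lam i j) (n : ℕ) (T : GT n)
    (i : Fin q) (ξ : ConfT q n T) : 0 ≤ msgT q lam n T i ξ :=
  Finset.sum_nonneg fun j _ => mul_nonneg (hp i j) (likT_nonneg q lam hp n T j ξ)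

theorem msgT_sum (q : ℕ) (hq : 0 < q) (lam : ℝ) (n : ℕ) (T : GT n) (i : Fin q) :
    ∑ ξ : ConfT q n T, msgT q lam n T i ξ = 1 := by
  unfold msgT
  rw [Finset.sum_comm]
  calc ∑ j : Fin q, ∑ ξ : ConfT q n T, potts q lam i j * likT q lam n T j ξ
      = ∑ j : Fin q, potts q lam i j := by
        refine Finset.sum_congr rfl fun j _ => ?_
        rw [← Finset.mul_sum, likT_sum q hq lam n T j, mul_one]
    _ = 1 := potts_sum q hq lam i

theorem msgT_sub (q : ℕ) (lam : ℝ) (n : ℕ) (T : GT n) (i i' : Fin q) (ξ : ConfT q n T) :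
    msgT q lam n T i ξ - msgT q lam n T i' ξ = lam * (likT q lam n T i ξ - likT q lam n T i' ξ) := by
  unfold msgT potts
  rw [← Finset.sum_sub_distrib]
  have h : ∀ j : Fin q, (lam * (if i = j then 1 else 0) + (1 - lam) / q) * likT q lam n T j ξ -
      (lam * (if i' = j then 1 else 0) + (1 - lam) / q) * likT q lam n T j ξ =
      lam * ((if i = j then likT q lam n T j ξ else 0) - (if i' = j then likT q lam n T j ξ else 0)) := by
    intro j
    split_ifs <;> ring
  simp only [h]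
  rw [← Finset.mul_sum, Finset.sum_sub_distrib, Finset.sum_ite_eq, Finset.sum_ite_eq]
  simp

theorem tvT_eq (q : ℕ) (hq : 0 < q) (lam : ℝ) (n : ℕ) (T : GT n) (i i' : Fin q) :
    tvT q lam n T i i' = 1 - ∑ η : ConfT q n T, min (likT q lam n T i η) (likT q lam n T i' η) :=
  half_abs_eq _ _ (likT_sum q hq lam n T i) (likT_sum q hq lam n T i')

theorem tvT_nonneg (q : ℕ) (lam : ℝ) (n : ℕ) (T : GT n) (i i' : Fin q) : 0 ≤ tvT q lam n T i i' :=
  mul_nonneg (by norm_num) (Finset.sum_nonneg fun _ _ => abs_nonneg _)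

theorem tvT_le_one (q : ℕ) (hq : 0 < q) (lam : ℝ) (hp : ∀ i j : Fin q, 0 ≤ potts q lam i j) (n : ℕ)
    (T : GT n) (i i' : Fin q) : tvT q lam n T i i' ≤ 1 := by
  rw [tvT_eq q hq]
  have : 0 ≤ ∑ η : ConfT q n T, min (likT q lam n T i η) (likT q lam n T i' η) :=
    Finset.sum_nonneg fun η _ => le_min (likT_nonneg q lam hp n T i η) (likT_nonneg q lam hp n T i' η)
  linarith

theorem msg_overlap (q : ℕ) (hq : 0 < q) (lam : ℝ) (n : ℕ) (T : GT n) (i i' : Fin q) :
    ∑ ξ : ConfT q n T, min (msgT q lam n T i ξ) (msgT q lam n T i' ξ) = 1 - |lam| * tvT q lam n T i i' := by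
  have h1 := half_abs_eq _ _ (msgT_sum q hq lam n T i) (msgT_sum q hq lam n T i')
  simp only [msgT_sub, abs_mul] at h1
  rw [← Finset.mul_sum] at h1
  unfold tvT
  linarith

theorem tvT_succ_le (q : ℕ) (hq : 0 < q) (lam : ℝ) (hp : ∀ i j : Fin q, 0 ≤ potts q lam i j) (n : ℕ)
    (T : GT (n + 1)) (i i' : Fin q) :
    tvT q lam (n + 1) T i i' ≤ 1 - ∏ j : Fin T.1, (1 - |lam| * tvT q lam n (T.2 j) i i') := by
  rw [tvT_eq q hq]
  have h := Finset.prod_univ_sum (fun k : Fin T.1 => (Finset.univ : Finset (ConfT q n (T.2 k))))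
    (fun k ξ => min (msgT q lam n (T.2 k) i ξ) (msgT q lam n (T.2 k) i' ξ))
  rw [Fintype.piFinset_univ] at h
  simp only [msg_overlap q hq] at h
  rw [h]
  have h2 : ∑ η : ((k : Fin T.1) → ConfT q n (T.2 k)),
      ∏ k : Fin T.1, min (msgT q lam n (T.2 k) i (η k)) (msgT q lam n (T.2 k) i' (η k)) ≤
      ∑ η : ((k : Fin T.1) → ConfT q n (T.2 k)),
        min (∏ k : Fin T.1, msgT q lam n (T.2 k) i (η k)) (∏ k : Fin T.1, msgT q lam n (T.2 k) i' (η k)) :=
    Finset.sum_le_sum fun η _ => prod_min_le Finset.univ _ _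
      (fun k => msgT_nonneg q lam hp n (T.2 k) i (η k)) (fun k => msgT_nonneg q lam hp n (T.2 k) i' (η k))
  have h3 : ∑ η : ConfT q (n + 1) T, min (likT q lam (n + 1) T i η) (likT q lam (n + 1) T i' η) =
      ∑ η : ((k : Fin T.1) → ConfT q n (T.2 k)),
        min (∏ k : Fin T.1, msgT q lam n (T.2 k) i (η k)) (∏ k : Fin T.1, msgT q lam n (T.2 k) i' (η k)) := rfl
  rw [h3]
  linarith

/-- the bound given by disagreement percolation -/
noncomputable def disT (c : ℝ) : (n : ℕ) → GT n → ℝ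
  | 0, _ => 1
  | n + 1, T => 1 - ∏ j : Fin T.1, (1 - c * disT c n (T.2 j))

theorem disT_mem (c : ℝ) (hc0 : 0 ≤ c) (hc1 : c ≤ 1) :
    ∀ (n : ℕ) (T : GT n), 0 ≤ disT c n T ∧ disT c n T ≤ 1
  | 0, _ => ⟨zero_le_one, le_refl _⟩
  | n + 1, T => by
    change 0 ≤ 1 - ∏ j : Fin T.1, (1 - c * disT c n (T.2 j)) ∧
      1 - ∏ j : Fin T.1, (1 - c * disT c n (T.2 j)) ≤ 1
    have h : ∀ j : Fin T.1, 0 ≤ 1 - c * disT c n (T.2 j) ∧ 1 - c * disT c n (T.2 j) ≤ 1 := by
      intro j
      obtain ⟨h0, h1⟩ := disT_mem c hc0 hc1 n (T.2 j)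
      constructor
      · nlinarith
      · nlinarith
    have h1 : ∏ j : Fin T.1, (1 - c * disT c n (T.2 j)) ≤ 1 :=
      Finset.prod_le_one (fun j _ => (h j).1) (fun j _ => (h j).2)
    have h0 : 0 ≤ ∏ j : Fin T.1, (1 - c * disT c n (T.2 j)) := Finset.prod_nonneg fun j _ => (h j).1
    constructor <;> linarith

theorem tvT_le_disT (q : ℕ) (hq : 0 < q) (lam : ℝ) (hp : ∀ i j : Fin q, 0 ≤ potts q lam i j)
    (hl : |lam| ≤ 1) : ∀ (n : ℕ) (T : GT n) (i i' : Fin q), tvT q lam n T i i' ≤ disT |lam| n T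
  | 0, T, i, i' => tvT_le_one q hq lam hp 0 T i i'
  | n + 1, T, i, i' => by
    refine (tvT_succ_le q hq lam hp n T i i').trans ?_
    change 1 - ∏ j : Fin T.1, (1 - |lam| * tvT q lam n (T.2 j) i i') ≤
      1 - ∏ j : Fin T.1, (1 - |lam| * disT |lam| n (T.2 j))
    have h : ∏ j : Fin T.1, (1 - |lam| * disT |lam| n (T.2 j)) ≤
        ∏ j : Fin T.1, (1 - |lam| * tvT q lam n (T.2 j) i i') := by
      refine Finset.prod_le_prod (fun j _ => ?_) (fun j _ => ?_)
      · obtain ⟨h0, h1⟩ := disT_mem |lam| (abs_nonneg lam) hl n (T.2 j)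
        nlinarith [abs_nonneg lam]
      · have := tvT_le_disT q hq lam hp hl n (T.2 j) i i'
        nlinarith [abs_nonneg lam]
    linarith

theorem aT_le_tvT (q : ℕ) (hq : 0 < q) (lam : ℝ) (hp : ∀ i j : Fin q, 0 ≤ potts q lam i j) (n : ℕ)
    (T : GT n) : aT q lam n T ≤ ∑ i : Fin q, ∑ i' : Fin q, tvT q lam n T i i' := by
  have hq' : (q : ℝ) ≠ 0 := by positivity
  have hq0 : (0 : ℝ) ≤ 1 / q := by positivity
  have hq1 : (1 : ℝ) / q ≤ 1 := by
    rw [div_le_one (by positivity)]
    exact_mod_cast hq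
  have key : ∀ (η : ConfT q n T) (i : Fin q), margT q lam n T η * |postT q lam n T i η - 1 / (q : ℝ)| ≤
      ∑ i' : Fin q, |likT q lam n T i η - likT q lam n T i' η| := by
    intro η i
    have hm := margT_nonneg q lam hp n T η
    rcases hm.eq_or_lt with h | h
    · rw [← h, zero_mul]
      exact Finset.sum_nonneg fun _ _ => abs_nonneg _
    · have e1 : margT q lam n T η * |postT q lam n T i η - 1 / (q : ℝ)| =
          |margT q lam n T η * (postT q lam n T i η - 1 / (q : ℝ))| := by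
        rw [abs_mul, abs_of_pos h]
      have e2 : margT q lam n T η * (postT q lam n T i η - 1 / (q : ℝ)) =
          1 / (q : ℝ) * (likT q lam n T i η - margT q lam n T η) := by
        unfold postT
        field_simp
      have e3 : likT q lam n T i η - margT q lam n T η =
          ∑ i' : Fin q, 1 / (q : ℝ) * (likT q lam n T i η - likT q lam n T i' η) := by
        unfold margT
        simp only [mul_sub]
        rw [Finset.sum_sub_distrib, Finset.sum_const, Finset.card_univ, Fintype.card_fin, nsmul_eq_mul]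
        field_simp
      rw [e1, e2, e3, abs_mul, abs_of_nonneg hq0]
      calc 1 / (q : ℝ) * |∑ i' : Fin q, 1 / (q : ℝ) * (likT q lam n T i η - likT q lam n T i' η)|
          ≤ 1 * |∑ i' : Fin q, 1 / (q : ℝ) * (likT q lam n T i η - likT q lam n T i' η)| :=
            mul_le_mul_of_nonneg_right hq1 (abs_nonneg _)
        _ = |∑ i' : Fin q, 1 / (q : ℝ) * (likT q lam n T i η - likT q lam n T i' η)| := one_mul _
        _ ≤ ∑ i' : Fin q, |1 / (q : ℝ) * (likT q lam n T i η - likT q lam n T i' η)| :=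
            Finset.abs_sum_le_sum_abs _ _
        _ ≤ ∑ i' : Fin q, |likT q lam n T i η - likT q lam n T i' η| := by
            refine Finset.sum_le_sum fun i' _ => ?_
            rw [abs_mul, abs_of_nonneg hq0]
            calc 1 / (q : ℝ) * |likT q lam n T i η - likT q lam n T i' η|
                ≤ 1 * |likT q lam n T i η - likT q lam n T i' η| :=
                  mul_le_mul_of_nonneg_right hq1 (abs_nonneg _)
              _ = _ := one_mul _
  have hswap : ∑ i : Fin q, ∑ i' : Fin q, tvT q lam n T i i' =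
      ∑ η : ConfT q n T, (1 / 2) * ∑ i : Fin q, ∑ i' : Fin q, |likT q lam n T i η - likT q lam n T i' η| := by
    unfold tvT
    simp only [Finset.mul_sum]
    calc ∑ i : Fin q, ∑ i' : Fin q, ∑ η : ConfT q n T, 1 / 2 * |likT q lam n T i η - likT q lam n T i' η|
        = ∑ i : Fin q, ∑ η : ConfT q n T, ∑ i' : Fin q, 1 / 2 * |likT q lam n T i η - likT q lam n T i' η| :=
          Finset.sum_congr rfl fun i _ => Finset.sum_comm
      _ = _ := Finset.sum_comm
  rw [hswap]
  unfold aT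
  refine Finset.sum_le_sum fun η _ => ?_
  have h1 : margT q lam n T η * (1 / 2 * ∑ i : Fin q, |postT q lam n T i η - 1 / (q : ℝ)|) =
      1 / 2 * ∑ i : Fin q, margT q lam n T η * |postT q lam n T i η - 1 / (q : ℝ)| := by
    rw [Finset.mul_sum, Finset.mul_sum, Finset.mul_sum]
    refine Finset.sum_congr rfl fun i _ => ?_
    ring
  rw [h1]
  exact mul_le_mul_of_nonneg_left (Finset.sum_le_sum fun i _ => key η i) (by norm_num)

theorem aT_le_disT (q : ℕ) (hq : 0 < q) (lam : ℝ) (hp : ∀ i j : Fin q, 0 ≤ potts q lam i j)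
    (hl : |lam| ≤ 1) (n : ℕ) (T : GT n) : aT q lam n T ≤ (q : ℝ) ^ 2 * disT |lam| n T := by
  refine (aT_le_tvT q hq lam hp n T).trans ?_
  calc ∑ i : Fin q, ∑ i' : Fin q, tvT q lam n T i i'
      ≤ ∑ _i : Fin q, ∑ _i' : Fin q, disT |lam| n T :=
        Finset.sum_le_sum fun i _ => Finset.sum_le_sum fun i' _ => tvT_le_disT q hq lam hp hl n T i i'
    _ = (q : ℝ) ^ 2 * disT |lam| n T := by
        simp only [Finset.sum_const, Finset.card_univ, Fintype.card_fin, nsmul_eq_mul]
        ring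

end Vale.Agent.P154
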