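import Vale.Agent.P154.GW.Coup

/-!
# P154: no reconstruction if `d * |lam| ≤ 1`: the two limit theorems
-/

namespace Vale.Agent.P154

open Finset Filter Topology

/-- expected disagreement bound on the Poisson tree -/
noncomputable def DG (c d : ℝ) (n : ℕ) : ℝ := ∑' T : GT n, probT d n T * disT c n T

theorem DG_hasSum (c d : ℝ) (hc0 : 0 ≤ c) (hc1 : c ≤ 1) (hd : 0 ≤ d) (n : ℕ) :
    HasSum (fun T : GT n => probT d n T * disT c n T) (DG c d n) :=
  (summable_probT_mul d hd n _ (fun T => (disT_mem c hc0 hc1 n T).1)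
    (fun T => (disT_mem c hc0 hc1 n T).2)).hasSum

theorem DG_nonneg (c d : ℝ) (hc0 : 0 ≤ c) (hc1 : c ≤ 1) (hd : 0 ≤ d) (n : ℕ) : 0 ≤ DG c d n :=
  tsum_nonneg fun T => mul_nonneg (probT_nonneg d hd n T) (disT_mem c hc0 hc1 n T).1

theorem DG_succ (c d : ℝ) (hc0 : 0 ≤ c) (hc1 : c ≤ 1) (hd : 0 ≤ d) (n : ℕ) :
    DG c d (n + 1) = 1 - Real.exp (-(d * c * DG c d n)) := by
  have h1 : HasSum (fun s : GT n => probT d n s * (1 - c * disT c n s)) (1 - c * DG c d n) := by
    have := (probT_hasSum d hd n).sub ((DG_hasSum c d hc0 hc1 hd n).mul_left c)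
    have he : (fun s : GT n => probT d n s * (1 - c * disT c n s)) =
        fun s : GT n => probT d n s - c * (probT d n s * disT c n s) := by
      funext s
      ring
    rw [he]
    exact this
  have h2 := hasSum_sig_gen (fun s : GT n => probT d n s * (1 - c * disT c n s)) (1 - c * DG c d n) d hd
    (fun s => mul_nonneg (probT_nonneg d hd n s) (by
      obtain ⟨h0, h1⟩ := disT_mem c hc0 hc1 n s
      nlinarith)) h1
  have h3 : HasSum (fun T : GT (n + 1) => probT d (n + 1) T * (1 - disT c (n + 1) T))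
      (Real.exp (-d * (1 - (1 - c * DG c d n)))) := by
    have he : (fun T : GT (n + 1) => probT d (n + 1) T * (1 - disT c (n + 1) T)) =
        (fun T : Σ k : ℕ, (Fin k → GT n) =>
          pois d T.1 * ∏ j, (probT d n (T.2 j) * (1 - c * disT c n (T.2 j)))) := by
      funext T
      change pois d T.1 * (∏ j, probT d n (T.2 j)) *
        (1 - (1 - ∏ j : Fin T.1, (1 - c * disT c n (T.2 j)))) = _
      rw [Finset.prod_mul_distrib]
      ring
    rw [he]
    exact h2
  have h4 : HasSum (fun T : GT (n + 1) => probT d (n + 1) T * (1 - disT c (n + 1) T))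
      (1 - DG c d (n + 1)) := by
    have := (probT_hasSum d hd (n + 1)).sub (DG_hasSum c d hc0 hc1 hd (n + 1))
    have he : (fun s : GT (n + 1) => probT d (n + 1) s * (1 - disT c (n + 1) s)) =
        fun s : GT (n + 1) => probT d (n + 1) s - probT d (n + 1) s * disT c (n + 1) s := by
      funext s
      ring
    rw [he]
    exact this
  have h5 := h3.unique h4
  have h6 : -d * (1 - (1 - c * DG c d n)) = -(d * c * DG c d n) := by ring
  rw [h6] at h5
  linarith

theorem DG_tendsto (c d : ℝ) (hc0 : 0 ≤ c) (hc1 : c ≤ 1) (hd : 0 ≤ d) (h : d * c ≤ 1) :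
    Tendsto (DG c d) atTop (𝓝 0) := by
  have hdc : 0 ≤ d * c := mul_nonneg hd hc0
  have hx : Tendsto (fun n => d * c * DG c d n) atTop (𝓝 0) := by
    apply seq_zero_exp _ (fun n => mul_nonneg hdc (DG_nonneg c d hc0 hc1 hd n))
    intro n
    rw [DG_succ c d hc0 hc1 hd n]
    have h1 : 0 ≤ 1 - Real.exp (-(d * c * DG c d n)) := by
      have : Real.exp (-(d * c * DG c d n)) ≤ 1 :=
        Real.exp_le_one_iff.2 (by linarith [mul_nonneg hdc (DG_nonneg c d hc0 hc1 hd n)])
      linarith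
    nlinarith
  rw [← tendsto_add_atTop_iff_nat 1]
  have h2 : Tendsto (fun n => 1 - Real.exp (-(d * c * DG c d n))) atTop (𝓝 (1 - Real.exp (-0))) :=
    tendsto_const_nhds.sub ((Real.continuous_exp.tendsto _).comp hx.neg)
  simp only [neg_zero, Real.exp_zero, sub_self] at h2
  refine h2.congr fun n => ?_
  rw [DG_succ c d hc0 hc1 hd n]

/-- Poisson tree: no reconstruction if `d * |lam| ≤ 1`, whatever the number of colours -/
theorem gw_coupling (q : ℕ) (hq : 0 < q) (d lam : ℝ) (hd : 0 ≤ d)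
    (hp : ∀ i j : Fin q, 0 ≤ potts q lam i j) (hl : |lam| ≤ 1) (h : d * |lam| ≤ 1) :
    Tendsto (fun n => aGW q d lam n) atTop (𝓝 0) := by
  have hlim : Tendsto (fun n => (q : ℝ) ^ 2 * DG |lam| d n) atTop (𝓝 0) := by
    have := (DG_tendsto |lam| d (abs_nonneg lam) hl hd h).const_mul ((q : ℝ) ^ 2)
    simpa using this
  refine squeeze_zero (fun n => ?_) (fun n => ?_) hlim
  · exact tsum_nonneg fun T => mul_nonneg (probT_nonneg d hd n T) (aT_nonneg' q lam hp n T)
  · unfold aGW DG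
    rw [← tsum_mul_left]
    refine Summable.tsum_le_tsum (fun T => ?_)
      (summable_probT_mul d hd n _ (aT_nonneg' q lam hp n) (aT_le_one q hq lam hp n))
      ((DG_hasSum |lam| d (abs_nonneg lam) hl hd n).summable.mul_left _)
    have h1 := mul_le_mul_of_nonneg_left (aT_le_disT q hq lam hp hl n T) (probT_nonneg d hd n T)
    linarith

theorem one_sub_pow_ge (d : ℕ) (hd : 2 ≤ d) (y : ℝ) (h0 : 0 ≤ y) (h1 : y ≤ 1) :
    1 - d * y + y ^ 2 ≤ (1 - y) ^ d := by
  obtain ⟨k, rfl⟩ := Nat.exists_eq_add_of_le hd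
  have hb : 1 + (k : ℝ) * (-y) ≤ (1 + -y) ^ k := one_add_mul_le_pow (by linarith) k
  have e : (1 - y) ^ (2 + k) = (1 - y) ^ 2 * (1 + -y) ^ k := by
    rw [pow_add]
    ring_nf
  rw [e]
  have h2 : (1 - y) ^ 2 * (1 + (k : ℝ) * (-y)) ≤ (1 - y) ^ 2 * (1 + -y) ^ k :=
    mul_le_mul_of_nonneg_left hb (sq_nonneg _)
  have hk : (0 : ℝ) ≤ k := Nat.cast_nonneg k
  have h3 : 0 ≤ (k : ℝ) * y ^ 2 * (2 - y) := mul_nonneg (mul_nonneg hk (sq_nonneg y)) (by linarith)
  push_cast
  nlinarith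

theorem disT_regT_succ (c : ℝ) (d n : ℕ) :
    disT c (n + 1) (regT d (n + 1)) = 1 - (1 - c * disT c n (regT d n)) ^ d := by
  change 1 - ∏ _j : Fin d, (1 - c * disT c n (regT d n)) = _
  rw [Finset.prod_const, Finset.card_univ, Fintype.card_fin]

theorem disT_regT_tendsto (c : ℝ) (hc0 : 0 ≤ c) (hc1 : c ≤ 1) (d : ℕ) (hd : 2 ≤ d) (h : (d : ℝ) * c ≤ 1) :
    Tendsto (fun n => disT c n (regT d n)) atTop (𝓝 0) := by
  rcases hc0.eq_or_lt with hc | hc
  · rw [← tendsto_add_atTop_iff_nat 1]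
    have : ∀ n, disT c (n + 1) (regT d (n + 1)) = 0 := by
      intro n
      rw [disT_regT_succ, ← hc]
      simp
    simp only [this]
    exact tendsto_const_nhds
  · apply seq_zero _ (c ^ 2) (by positivity) (fun n => (disT_mem c hc0 hc1 n _).1)
    intro n
    rw [disT_regT_succ]
    obtain ⟨h0, h1⟩ := disT_mem c hc0 hc1 n (regT d n)
    set r := disT c n (regT d n)
    have h2 := one_sub_pow_ge d hd (c * r) (mul_nonneg hc0 h0) (by nlinarith)
    have h3 : (d : ℝ) * c * r ≤ 1 * r := mul_le_mul_of_nonneg_right h h0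
    nlinarith

/-- `d`-ary tree: no reconstruction if `d * |lam| ≤ 1`, whatever the number of colours -/
theorem reg_coupling (q : ℕ) (hq : 0 < q) (d : ℕ) (hd : 2 ≤ d) (lam : ℝ)
    (hp : ∀ i j : Fin q, 0 ≤ potts q lam i j) (h : (d : ℝ) * |lam| ≤ 1) :
    Tendsto (fun n => aTV q d lam n) atTop (𝓝 0) := by
  have hd2 : (2 : ℝ) ≤ d := by exact_mod_cast hd
  have hl : |lam| ≤ 1 := by nlinarith [abs_nonneg lam]
  have hlim : Tendsto (fun n => (q : ℝ) ^ 2 * disT |lam| n (regT d n)) atTop (𝓝 0) := by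
    have := (disT_regT_tendsto |lam| (abs_nonneg lam) hl d hd h).const_mul ((q : ℝ) ^ 2)
    simpa using this
  refine squeeze_zero (fun n => ?_) (fun n => ?_) hlim
  · rw [← aT_regT]
    exact aT_nonneg' q lam hp n _
  · rw [← aT_regT]
    exact aT_le_disT q hq lam hp hl n _

end Vale.Agent.P154
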