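import Vale.Agent.P154.Defs

/-!
# P154: broadcasting with the Potts channel on a Galton-Watson tree with Poisson offspring

* `GT n` is the set of rooted (ordered) trees cut at depth `n`: a tree cut at depth `n + 1` is given by the number `k` of children of
  the root and the `k` subtrees (cut at depth `n`) hanging at the children.
* `probT d n T` is the probability that the Galton-Watson tree with independent Poisson(`d`) offspring numbers, cut at depth `n`, is `T`.
* `ConfT q n T` is the set of colourings of the vertices of `T` at depth `n`.
* `likT q lam n T i η` is the probability that the spins at depth `n` of `T` are `η`, given that the root spin is `i` (Markov recursion,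
  as `lik` in `Defs.lean`).
* `margT`, `postT`: law of these spins for a uniform root spin, posterior law of the root spin.
* `aT q lam n T`: expected total variation distance between the posterior of the root and the uniform law, on the tree `T`.
* `aGW q d lam n = ∑ over T of probT d n T * aT q lam n T` is the quantity `a_n` of the problem file for the Galton-Watson tree (the
  posterior of the root given the whole tree and the spins at depth `n` only depends on the tree cut at depth `n`).
-/

namespace Vale.Agent.P154

/-- Rooted trees cut at depth `n`. -/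
def GT : ℕ → Type
  | 0 => Unit
  | n + 1 => Σ k : ℕ, (Fin k → GT n)

/-- Poisson weights. -/
noncomputable def pois (d : ℝ) (k : ℕ) : ℝ := Real.exp (-d) * d ^ k / (k.factorial : ℝ)

/-- Probability that the Galton-Watson tree cut at depth `n` is `T`. -/
noncomputable def probT (d : ℝ) : (n : ℕ) → GT n → ℝ
  | 0, _ => 1
  | n + 1, T => pois d T.1 * ∏ j, probT d n (T.2 j)

/-- Colourings of the vertices at depth `n` of `T`. -/
def ConfT (q : ℕ) : (n : ℕ) → GT n → Type
  | 0, _ => Fin q
  | n + 1, T => (j : Fin T.1) → ConfT q n (T.2 j)

instance ConfT.fintype (q : ℕ) : (n : ℕ) → (T : GT n) → Fintype (ConfT q n T)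
  | 0, _ => inferInstanceAs (Fintype (Fin q))
  | n + 1, T =>
    haveI := fun j => ConfT.fintype q n (T.2 j)
    inferInstanceAs (Fintype ((j : Fin T.1) → ConfT q n (T.2 j)))

/-- Probability of the colouring `η` of the vertices at depth `n` of `T` given the root spin `i`. -/
noncomputable def likT (q : ℕ) (lam : ℝ) : (n : ℕ) → (T : GT n) → Fin q → ConfT q n T → ℝ
  | 0, _, i, η => if (show Fin q from η) = i then 1 else 0
  | n + 1, T, i, η => ∏ k : Fin T.1, ∑ j : Fin q, potts q lam i j * likT q lam n (T.2 k) j (η k)

noncomputable def margT (q : ℕ) (lam : ℝ) (n : ℕ) (T : GT n) (η : ConfT q n T) : ℝ :=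
  ∑ i : Fin q, (1 / (q : ℝ)) * likT q lam n T i η

noncomputable def postT (q : ℕ) (lam : ℝ) (n : ℕ) (T : GT n) (i : Fin q) (η : ConfT q n T) : ℝ :=
  (1 / (q : ℝ)) * likT q lam n T i η / margT q lam n T η

noncomputable def aT (q : ℕ) (lam : ℝ) (n : ℕ) (T : GT n) : ℝ :=
  ∑ η : ConfT q n T, margT q lam n T η * ((1 / 2) * ∑ i : Fin q, |postT q lam n T i η - 1 / (q : ℝ)|)

/-- `a_n` for the Galton-Watson tree with Poisson(`d`) offspring. -/
noncomputable def aGW (q : ℕ) (d lam : ℝ) (n : ℕ) : ℝ :=
  ∑' T : GT n, probT d n T * aT q lam n T

end Vale.Agent.P154
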