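import Vale.Agent.P154.GW.MainGW

/-!
# P154, Galton-Watson: the trivial range `d ≤ 1` (extinction), any number of colours, any admissible `lam`

`aliveT n T` is `1` if the tree `T` has a vertex at depth `n` and `0` otherwise.
* If `aliveT n T = 0` the likelihood does not depend on the root spin, so `aT = 0`; in general `0 ≤ aT ≤ 1`.  Hence `aT ≤ aliveT`.
* `S n = ∑ probT * aliveT` (survival probability) satisfies `1 - S (n+1) = exp (-d S n)`, so `S n → 0` if `d ≤ 1`.
-/

namespace Vale.Agent.P154

open Finset Filter Topology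

noncomputable def aliveT : (n : ℕ) → GT n → ℝ
  | 0, _ => 1
  | n + 1, T => 1 - ∏ j : Fin T.1, (1 - aliveT n (T.2 j))

theorem aliveT_zero_or_one : ∀ (n : ℕ) (T : GT n), aliveT n T = 0 ∨ aliveT n T = 1
  | 0, _ => Or.inr rfl
  | n + 1, T => by
    change 1 - ∏ j : Fin T.1, (1 - aliveT n (T.2 j)) = 0 ∨ 1 - ∏ j : Fin T.1, (1 - aliveT n (T.2 j)) = 1
    by_cases h : ∀ j : Fin T.1, aliveT n (T.2 j) = 0
    · left
      rw [Finset.prod_eq_one (fun j _ => by rw [h j, sub_zero])]
      ring
    · right
      push_neg at h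
      obtain ⟨j, hj⟩ := h
      have h1 : aliveT n (T.2 j) = 1 := (aliveT_zero_or_one n (T.2 j)).resolve_left hj
      rw [Finset.prod_eq_zero (Finset.mem_univ j) (by rw [h1, sub_self])]
      ring

theorem aliveT_succ_zero (n : ℕ) (T : GT (n + 1)) (h : aliveT (n + 1) T = 0) (j : Fin T.1) :
    aliveT n (T.2 j) = 0 := by
  by_contra hj
  have h1 : aliveT n (T.2 j) = 1 := (aliveT_zero_or_one n (T.2 j)).resolve_left hj
  have h2 : 1 - ∏ j : Fin T.1, (1 - aliveT n (T.2 j)) = 0 := h
  rw [Finset.prod_eq_zero (Finset.mem_univ j) (by rw [h1, sub_self])] at h2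
  norm_num at h2

theorem potts_sum (q : ℕ) (hq : 0 < q) (lam : ℝ) (i : Fin q) : ∑ j : Fin q, potts q lam i j = 1 := by
  unfold potts
  rw [Finset.sum_add_distrib, ← Finset.mul_sum]
  have hq' : (q : ℝ) ≠ 0 := by positivity
  simp
  field_simp
  ring

/-- on a tree without vertices at depth `n` the likelihood does not depend on the root spin -/
theorem likT_dead (q : ℕ) (hq : 0 < q) (lam : ℝ) : ∀ (n : ℕ) (T : GT n), aliveT n T = 0 →
    ∀ (i i' : Fin q) (η : ConfT q n T), likT q lam n T i η = likT q lam n T i' η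
  | 0, _, h, _, _, _ => by
    exfalso
    have : (1 : ℝ) = 0 := h
    norm_num at this
  | n + 1, T, h, i, i', η => by
    change ∏ k : Fin T.1, ∑ j : Fin q, potts q lam i j * likT q lam n (T.2 k) j (η k) =
      ∏ k : Fin T.1, ∑ j : Fin q, potts q lam i' j * likT q lam n (T.2 k) j (η k)
    refine Finset.prod_congr rfl fun k _ => ?_
    have hk := likT_dead q hq lam n (T.2 k) (aliveT_succ_zero n T h k)
    have e1 : ∀ a : Fin q, ∑ j : Fin q, potts q lam a j * likT q lam n (T.2 k) j (η k) =
        likT q lam n (T.2 k) i (η k) := by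
      intro a
      calc ∑ j : Fin q, potts q lam a j * likT q lam n (T.2 k) j (η k)
          = ∑ j : Fin q, potts q lam a j * likT q lam n (T.2 k) i (η k) :=
            Finset.sum_congr rfl fun j _ => by rw [hk j i (η k)]
        _ = likT q lam n (T.2 k) i (η k) := by
            rw [← Finset.sum_mul, potts_sum q hq, one_mul]
    rw [e1 i, e1 i']

theorem aT_dead (q : ℕ) (hq : 0 < q) (lam : ℝ) (n : ℕ) (T : GT n) (h : aliveT n T = 0) :
    aT q lam n T = 0 := by
  unfold aT
  refine Finset.sum_eq_zero fun η _ => ?_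
  have hq' : (q : ℝ) ≠ 0 := by positivity
  have hd := likT_dead q hq lam n T h
  by_cases hm : margT q lam n T η = 0
  · rw [hm, zero_mul]
  · have hpost : ∀ i : Fin q, postT q lam n T i η = 1 / (q : ℝ) := by
      intro i
      have e : margT q lam n T η = likT q lam n T i η := by
        unfold margT
        rw [Finset.sum_congr rfl (fun j _ => by rw [hd j i η])]
        simp
        field_simp
      unfold postT
      rw [e] at hm ⊢
      field_simp
    rw [Finset.sum_eq_zero (fun i _ => by rw [hpost i, sub_self, abs_zero])]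
    ring

theorem likT_nonneg (q : ℕ) (lam : ℝ) (hp : ∀ i j : Fin q, 0 ≤ potts q lam i j) :
    ∀ (n : ℕ) (T : GT n) (i : Fin q) (η : ConfT q n T), 0 ≤ likT q lam n T i η
  | 0, _, i, η => by
    change 0 ≤ if (show Fin q from η) = i then (1 : ℝ) else 0
    split_ifs <;> norm_num
  | n + 1, T, i, η => by
    change 0 ≤ ∏ k : Fin T.1, ∑ j : Fin q, potts q lam i j * likT q lam n (T.2 k) j (η k)
    exact Finset.prod_nonneg fun k _ => Finset.sum_nonneg fun j _ =>
      mul_nonneg (hp i j) (likT_nonneg q lam hp n (T.2 k) j (η k))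

theorem likT_sum (q : ℕ) (hq : 0 < q) (lam : ℝ) : ∀ (n : ℕ) (T : GT n) (i : Fin q),
    ∑ η : ConfT q n T, likT q lam n T i η = 1
  | 0, _, i => by
    change ∑ η : Fin q, (if η = i then (1 : ℝ) else 0) = 1
    simp
  | n + 1, T, i => by
    change ∑ η : ((k : Fin T.1) → ConfT q n (T.2 k)),
      ∏ k : Fin T.1, ∑ j : Fin q, potts q lam i j * likT q lam n (T.2 k) j (η k) = 1
    have h := Finset.prod_univ_sum (fun k : Fin T.1 => (Finset.univ : Finset (ConfT q n (T.2 k))))
      (fun k ξ => ∑ j : Fin q, potts q lam i j * likT q lam n (T.2 k) j ξ)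
    rw [Fintype.piFinset_univ] at h
    rw [← h]
    refine Finset.prod_eq_one fun k _ => ?_
    rw [Finset.sum_comm]
    calc ∑ j : Fin q, ∑ ξ : ConfT q n (T.2 k), potts q lam i j * likT q lam n (T.2 k) j ξ
        = ∑ j : Fin q, potts q lam i j := by
          refine Finset.sum_congr rfl fun j _ => ?_
          rw [← Finset.mul_sum, likT_sum q hq lam n (T.2 k) j, mul_one]
      _ = 1 := potts_sum q hq lam i

theorem margT_nonneg (q : ℕ) (lam : ℝ) (hp : ∀ i j : Fin q, 0 ≤ potts q lam i j) (n : ℕ) (T : GT n)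
    (η : ConfT q n T) : 0 ≤ margT q lam n T η := by
  unfold margT
  exact Finset.sum_nonneg fun i _ => mul_nonneg (by positivity) (likT_nonneg q lam hp n T i η)

theorem margT_sum (q : ℕ) (hq : 0 < q) (lam : ℝ) (n : ℕ) (T : GT n) :
    ∑ η : ConfT q n T, margT q lam n T η = 1 := by
  unfold margT
  rw [Finset.sum_comm]
  have hq' : (q : ℝ) ≠ 0 := by positivity
  calc ∑ i : Fin q, ∑ η : ConfT q n T, 1 / (q : ℝ) * likT q lam n T i η
      = ∑ i : Fin q, 1 / (q : ℝ) := by
        refine Finset.sum_congr rfl fun i _ => ?_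
        rw [← Finset.mul_sum, likT_sum q hq lam n T i, mul_one]
    _ = 1 := by
        simp
        field_simp

theorem aT_nonneg' (q : ℕ) (lam : ℝ) (hp : ∀ i j : Fin q, 0 ≤ potts q lam i j) (n : ℕ) (T : GT n) :
    0 ≤ aT q lam n T := by
  unfold aT
  exact Finset.sum_nonneg fun η _ => mul_nonneg (margT_nonneg q lam hp n T η)
    (mul_nonneg (by norm_num) (Finset.sum_nonneg fun i _ => abs_nonneg _))

theorem aT_le_one (q : ℕ) (hq : 0 < q) (lam : ℝ) (hp : ∀ i j : Fin q, 0 ≤ potts q lam i j) (n : ℕ)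
    (T : GT n) : aT q lam n T ≤ 1 := by
  rw [← margT_sum q hq lam n T]
  unfold aT
  refine Finset.sum_le_sum fun η _ => ?_
  have hm := margT_nonneg q lam hp n T η
  have hq' : (q : ℝ) ≠ 0 := by positivity
  rcases hm.eq_or_lt with h | h
  · rw [← h, zero_mul]
  · have hb : (1 / 2 : ℝ) * ∑ i : Fin q, |postT q lam n T i η - 1 / (q : ℝ)| ≤ 1 := by
      have h1 : ∀ i : Fin q, |postT q lam n T i η - 1 / (q : ℝ)| ≤ postT q lam n T i η + 1 / (q : ℝ) := by
        intro i
        have hpos : 0 ≤ postT q lam n T i η := by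
          unfold postT
          exact div_nonneg (mul_nonneg (by positivity) (likT_nonneg q lam hp n T i η)) hm
        have hq0 : 0 ≤ 1 / (q : ℝ) := by positivity
        rw [abs_le]
        constructor <;> linarith
      have h2 : ∑ i : Fin q, postT q lam n T i η = 1 := by
        unfold postT
        rw [← Finset.sum_div]
        exact div_self h.ne'
      have h3 : ∑ i : Fin q, (1 / (q : ℝ)) = 1 := by
        simp
        field_simp
      have h4 := Finset.sum_le_sum (fun i (_ : i ∈ Finset.univ) => h1 i)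
      rw [Finset.sum_add_distrib, h2, h3] at h4
      linarith
    calc margT q lam n T η * (1 / 2 * ∑ i : Fin q, |postT q lam n T i η - 1 / (q : ℝ)|)
        ≤ margT q lam n T η * 1 := mul_le_mul_of_nonneg_left hb hm
      _ = margT q lam n T η := mul_one _

theorem aT_le_alive (q : ℕ) (hq : 0 < q) (lam : ℝ) (hp : ∀ i j : Fin q, 0 ≤ potts q lam i j) (n : ℕ)
    (T : GT n) : aT q lam n T ≤ aliveT n T := by
  rcases aliveT_zero_or_one n T with h | h
  · rw [h, aT_dead q hq lam n T h]
  · rw [h]
    exact aT_le_one q hq lam hp n T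

end Vale.Agent.P154
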