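import Vale.Agent.P154.GW.Ext

/-!
# P154, Galton-Watson: extinction for `d ≤ 1`

* `hasSum_sig_gen`: generating function of the Poisson mixture, `∑_T pois d T.1 ∏_j g (T.2 j) = exp (-d (1 - s))` if `∑ g = s`, `g ≥ 0`.
* `SG d n = ∑ probT * aliveT` is the probability that the tree reaches depth `n`; `1 - SG (n+1) = exp (-d SG n)`.
* `seq_zero_exp`: `0 ≤ x (n+1) ≤ 1 - exp (- x n)` implies `x n → 0`.
-/

namespace Vale.Agent.P154

open Finset Filter Topology

theorem hasSum_sig_gen {α : Type} (g : α → ℝ) (s d : ℝ) (hd : 0 ≤ d) (hg0 : ∀ a, 0 ≤ g a)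
    (hg : HasSum g s) :
    HasSum (fun T : Σ k : ℕ, (Fin k → α) => pois d T.1 * ∏ j, g (T.2 j)) (Real.exp (-d * (1 - s))) := by
  have hk : ∀ k : ℕ, HasSum (fun c : Fin k → α => pois d k * ∏ j, g (c j)) (pois d k * s ^ k) :=
    fun k => (hasSum_pi_prod g s hg0 hg k).mul_left _
  have hout : HasSum (fun k : ℕ => pois d k * s ^ k) (Real.exp (-d * (1 - s))) := by
    have h1 := (NormedSpace.expSeries_div_hasSum_exp (d * s : ℝ)).mul_left (Real.exp (-d))
    have e1 : (fun k : ℕ => pois d k * s ^ k) =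
        fun k : ℕ => Real.exp (-d) * ((d * s) ^ k / (Nat.factorial k : ℝ)) := by
      funext k
      unfold pois
      rw [mul_pow]
      ring
    have e2 : Real.exp (-d * (1 - s)) = Real.exp (-d) * NormedSpace.exp (d * s) := by
      rw [← congrFun Real.exp_eq_exp_ℝ (d * s), ← Real.exp_add]
      congr 1
      ring
    rw [e1, e2]
    exact h1
  have hnn : ∀ T : Σ k : ℕ, (Fin k → α), 0 ≤ pois d T.1 * ∏ j, g (T.2 j) := fun T =>
    mul_nonneg (pois_nonneg d hd _) (Finset.prod_nonneg fun j _ => hg0 _)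
  have hsum : Summable (fun T : Σ k : ℕ, (Fin k → α) => pois d T.1 * ∏ j, g (T.2 j)) := by
    rw [summable_sigma_of_nonneg hnn]
    refine ⟨fun k => (hk k).summable, ?_⟩
    have : (fun k : ℕ => ∑' c : Fin k → α, pois d k * ∏ j, g (c j)) = fun k : ℕ => pois d k * s ^ k :=
      funext fun k => (hk k).tsum_eq
    rw [this]
    exact hout.summable
  exact HasSum.sigma_of_hasSum hout hk hsum

theorem aliveT_nonneg (n : ℕ) (T : GT n) : 0 ≤ aliveT n T := by
  rcases aliveT_zero_or_one n T with h | h <;> rw [h] <;> norm_num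

theorem aliveT_le_one (n : ℕ) (T : GT n) : aliveT n T ≤ 1 := by
  rcases aliveT_zero_or_one n T with h | h <;> rw [h] <;> norm_num

/-- probability that the tree reaches depth `n` -/
noncomputable def SG (d : ℝ) (n : ℕ) : ℝ := ∑' T : GT n, probT d n T * aliveT n T

theorem SG_hasSum (d : ℝ) (hd : 0 ≤ d) (n : ℕ) : HasSum (fun T : GT n => probT d n T * aliveT n T) (SG d n) :=
  (summable_probT_mul d hd n _ (aliveT_nonneg n) (aliveT_le_one n)).hasSum

theorem SG_nonneg (d : ℝ) (hd : 0 ≤ d) (n : ℕ) : 0 ≤ SG d n :=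
  tsum_nonneg fun T => mul_nonneg (probT_nonneg d hd n T) (aliveT_nonneg n T)

theorem SG_succ (d : ℝ) (hd : 0 ≤ d) (n : ℕ) : SG d (n + 1) = 1 - Real.exp (-d * SG d n) := by
  have h1 : HasSum (fun s : GT n => probT d n s * (1 - aliveT n s)) (1 - SG d n) := by
    have := (probT_hasSum d hd n).sub (SG_hasSum d hd n)
    have he : (fun s : GT n => probT d n s * (1 - aliveT n s)) =
        fun s : GT n => probT d n s - probT d n s * aliveT n s := by
      funext s
      ring
    rw [he]
    exact this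
  have h2 := hasSum_sig_gen (fun s : GT n => probT d n s * (1 - aliveT n s)) (1 - SG d n) d hd
    (fun s => mul_nonneg (probT_nonneg d hd n s) (by linarith [aliveT_le_one n s])) h1
  have h3 : HasSum (fun T : GT (n + 1) => probT d (n + 1) T * (1 - aliveT (n + 1) T))
      (Real.exp (-d * (1 - (1 - SG d n)))) := by
    have he : (fun T : GT (n + 1) => probT d (n + 1) T * (1 - aliveT (n + 1) T)) =
        (fun T : Σ k : ℕ, (Fin k → GT n) => pois d T.1 * ∏ j, (probT d n (T.2 j) * (1 - aliveT n (T.2 j)))) := by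
      funext T
      change pois d T.1 * (∏ j, probT d n (T.2 j)) * (1 - (1 - ∏ j : Fin T.1, (1 - aliveT n (T.2 j)))) = _
      rw [Finset.prod_mul_distrib]
      ring
    rw [he]
    exact h2
  have h4 : HasSum (fun T : GT (n + 1) => probT d (n + 1) T * (1 - aliveT (n + 1) T)) (1 - SG d (n + 1)) := by
    have := (probT_hasSum d hd (n + 1)).sub (SG_hasSum d hd (n + 1))
    have he : (fun s : GT (n + 1) => probT d (n + 1) s * (1 - aliveT (n + 1) s)) =
        fun s : GT (n + 1) => probT d (n + 1) s - probT d (n + 1) s * aliveT (n + 1) s := by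
      funext s
      ring
    rw [he]
    exact this
  have h5 := h3.unique h4
  have h6 : -d * (1 - (1 - SG d n)) = -d * SG d n := by ring
  rw [h6] at h5
  linarith

theorem seq_zero_exp (x : ℕ → ℝ) (h0 : ∀ n, 0 ≤ x n) (hs : ∀ n, x (n + 1) ≤ 1 - Real.exp (-x n)) :
    Tendsto x atTop (𝓝 0) := by
  have hanti : Antitone x := by
    apply antitone_nat_of_succ_le
    intro n
    have h1 := hs n
    have h2 := Real.add_one_le_exp (-x n)
    linarith
  have hbdd : BddBelow (Set.range x) := ⟨0, by rintro _ ⟨n, rfl⟩; exact h0 n⟩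
  have hlim := tendsto_atTop_ciInf hanti hbdd
  set L := ⨅ i, x i with hL
  have hlim1 : Tendsto (fun n => x (n + 1)) atTop (𝓝 L) := (tendsto_add_atTop_iff_nat 1).2 hlim
  have hlim2 : Tendsto (fun n => 1 - Real.exp (-x n)) atTop (𝓝 (1 - Real.exp (-L))) :=
    tendsto_const_nhds.sub ((Real.continuous_exp.tendsto _).comp hlim.neg)
  have hle : L ≤ 1 - Real.exp (-L) := le_of_tendsto_of_tendsto' hlim1 hlim2 hs
  have hL0 : L = 0 := by
    by_contra hne
    have := Real.add_one_lt_exp (x := -L) (by simpa using hne)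
    linarith
  rw [hL0] at hlim
  exact hlim

theorem SG_tendsto (d : ℝ) (hd : 0 ≤ d) (hd1 : d ≤ 1) : Tendsto (SG d) atTop (𝓝 0) := by
  apply seq_zero_exp (SG d) (SG_nonneg d hd)
  intro n
  rw [SG_succ d hd n]
  have h1 : -SG d n ≤ -d * SG d n := by nlinarith [SG_nonneg d hd n]
  have := Real.exp_le_exp.2 h1
  linarith

/-- no reconstruction on a (sub)critical Galton-Watson tree, whatever the channel -/
theorem gw_extinct (q : ℕ) (hq : 0 < q) (d lam : ℝ) (hd : 0 ≤ d) (hd1 : d ≤ 1)
    (hp : ∀ i j : Fin q, 0 ≤ potts q lam i j) : Tendsto (fun n => aGW q d lam n) atTop (𝓝 0) := by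
  refine squeeze_zero (fun n => ?_) (fun n => ?_) (SG_tendsto d hd hd1)
  · exact tsum_nonneg fun T => mul_nonneg (probT_nonneg d hd n T) (aT_nonneg' q lam hp n T)
  · unfold aGW SG
    refine Summable.tsum_le_tsum (fun T => mul_le_mul_of_nonneg_left (aT_le_alive q hq lam hp n T)
      (probT_nonneg d hd n T))
      (summable_probT_mul d hd n _ (aT_nonneg' q lam hp n) (aT_le_one q hq lam hp n))
      (summable_probT_mul d hd n _ (aliveT_nonneg n) (aliveT_le_one n))

end Vale.Agent.P154
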