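import Vale.Agent.P154.GW.Ext2

/-!
# P154 (Galton-Watson): the point `lam = 1`

For `lam = 1` the Kesten-Stigum condition `d lam^2 ≤ 1` reads `d ≤ 1`; the tree dies out, so `a_n → 0` (`gw_extinct`).
-/

namespace Vale.Agent.P154

open Filter Topology

theorem potts_one_nonneg (q : ℕ) (i j : Fin q) : 0 ≤ potts q 1 i j := by
  unfold potts
  split_ifs <;> simp

theorem gw_lam_one (d : ℝ) (hd : 0 < d) (hd1 : d ≤ 1) :
    Tendsto (fun n => aGW 3 d 1 n) atTop (𝓝 0) :=
  gw_extinct 3 (by norm_num) d 1 hd.le hd1 (potts_one_nonneg 3)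

end Vale.Agent.P154
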