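import Vale.Agent.P154.GW.SumB

/-!
# P154, Galton-Watson: sums over a Poisson number of independent copies (abstract, no trees)

`α` any type, `p : α → ℝ` nonnegative with `HasSum p 1`.
* `pois_hasSum`, `pois_mean`: `∑ pois d k = 1`, `∑ pois d k * k = d`  (`NormedSpace.expSeries_div_hasSum_exp`, `Real.exp_eq_exp_ℝ`; see
  `ProbabilityTheory.hasSum_one_poissonMeasure` in Mathlib; for the mean shift the index: `pois d (k+1) * (k+1) = d * pois d k`,
  `hasSum_nat_add_iff' 1` or `(hasSum_nat_add_iff 1)`).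
* `pk_hasSum`: `HasSum (fun c : Fin k → α => ∏ j, p (c j)) 1`, induction on `k`: `Fin.consEquiv`, `Fin.prod_univ_succ`, `HasSum.mul` with
  `Summable.mul_of_nonneg`, `Equiv.hasSum_iff`.
* `sig_hasSum`: `HasSum (fun T : Σ k, (Fin k → α) => pois d T.1 * ∏ j, p (T.2 j)) 1`: `HasSum.sigma_of_hasSum`, `summable_sigma_of_nonneg`.
* `Mk_step`: with `M k = ∑' c : Fin k → α, (∏ j, p (c j)) * X k c`, `Y = ∑' a, p a * y a`:  `M (k+1) ≤ Y + M k - Y * M k / 10`
  (sum the hypothesis `hstep` against the product weights; all functions are bounded by the weights, hence summable; the right-hand side factors).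
* `Mk_le`: `M k ≤ k Y` and `M 2 ≤ 2 Y - Y^2/10`  (`0 ≤ M k`, `0 ≤ Y ≤ 1`).
* `sig_le`: `∑' T, pois d T.1 * (∏ p) * X T.1 T.2 = ∑' k, pois d k * M k ≤ ∑' k, pois d k * (k Y - [k = 2] Y^2/10) = d Y - pois d 2 * Y^2/10`.
* `jensen_sq`: `(∑' p a)^2 ≤ ∑' p a^2` from `0 ≤ ∑' p (a - m)^2`.
-/

namespace Vale.Agent.P154

open Finset

variable {α : Type} {p : α → ℝ}

/-- A weight times a function with values in `[0,1]` is summable. -/
theorem summable_wt {β : Type} {w f : β → ℝ} (hw0 : ∀ b, 0 ≤ w b) (hw : Summable w)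
    (hf0 : ∀ b, 0 ≤ f b) (hf1 : ∀ b, f b ≤ 1) : Summable (fun b => w b * f b) := by
  refine Summable.of_nonneg_of_le (fun b => mul_nonneg (hw0 b) (hf0 b)) (fun b => ?_) hw
  calc w b * f b ≤ w b * 1 := mul_le_mul_of_nonneg_left (hf1 b) (hw0 b)
    _ = w b := mul_one _

theorem tsum_wt_nonneg {β : Type} {w f : β → ℝ} (hw0 : ∀ b, 0 ≤ w b)
    (hf0 : ∀ b, 0 ≤ f b) : 0 ≤ ∑' b, w b * f b :=
  tsum_nonneg (fun b => mul_nonneg (hw0 b) (hf0 b))

theorem tsum_wt_le_one {β : Type} {w f : β → ℝ} (hw0 : ∀ b, 0 ≤ w b) (hw : HasSum w 1)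
    (hf0 : ∀ b, 0 ≤ f b) (hf1 : ∀ b, f b ≤ 1) : ∑' b, w b * f b ≤ 1 := by
  refine hasSum_le (fun b => ?_) (summable_wt hw0 hw.summable hf0 hf1).hasSum hw
  calc w b * f b ≤ w b * 1 := mul_le_mul_of_nonneg_left (hf1 b) (hw0 b)
    _ = w b := mul_one _

theorem prod_wt_nonneg (hp0 : ∀ a, 0 ≤ p a) (k : ℕ) (c : Fin k → α) : 0 ≤ ∏ j, p (c j) :=
  Finset.prod_nonneg (fun j _ => hp0 (c j))

/-- Product sums along the decomposition of a tuple into its head and its tail. -/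
theorem hasSum_cons {k : ℕ} {f : α → ℝ} {g : (Fin k → α) → ℝ} {s t : ℝ} (hf : HasSum f s)
    (hg : HasSum g t) (hf0 : ∀ a, 0 ≤ f a) (hg0 : ∀ c, 0 ≤ g c) :
    HasSum (fun c : Fin (k + 1) → α => f (c 0) * g (Fin.tail c)) (s * t) := by
  have h := hf.mul hg (Summable.mul_of_nonneg hf.summable hg.summable hf0 hg0)
  rw [← (Fin.consEquiv (fun _ : Fin (k + 1) => α)).hasSum_iff]
  have he : ((fun c : Fin (k + 1) → α => f (c 0) * g (Fin.tail c)) ∘
      (Fin.consEquiv (fun _ : Fin (k + 1) => α))) = fun x : α × (Fin k → α) => f x.1 * g x.2 := by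
    funext x
    have h1 : (Fin.consEquiv (fun _ : Fin (k + 1) => α)) x = Fin.cons x.1 x.2 := rfl
    simp only [Function.comp]
    rw [h1, Fin.cons_zero, Fin.tail_cons]
  rw [he]
  exact h

theorem prod_wt_succ (k : ℕ) (c : Fin (k + 1) → α) :
    ∏ j, p (c j) = p (c 0) * ∏ j, p (Fin.tail c j) := by
  rw [Fin.prod_univ_succ]
  rfl

/-- The recursion for the averages. -/
theorem Mk_step (hp0 : ∀ a, 0 ≤ p a) (hp1 : HasSum p 1)
    (y : α → ℝ) (hy0 : ∀ a, 0 ≤ y a) (hy1 : ∀ a, y a ≤ 1)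
    (X : (k : ℕ) → (Fin k → α) → ℝ) (hX0 : ∀ k c, 0 ≤ X k c) (hX1 : ∀ k c, X k c ≤ 1)
    (hstep : ∀ k (c : Fin (k + 1) → α),
      X (k + 1) c ≤ y (c 0) + X k (Fin.tail c) - 1 / 10 * y (c 0) * X k (Fin.tail c)) (k : ℕ) :
    ∑' c : Fin (k + 1) → α, (∏ j, p (c j)) * X (k + 1) c ≤
      (∑' a, p a * y a) + (∑' c : Fin k → α, (∏ j, p (c j)) * X k c)
        - 1 / 10 * (∑' a, p a * y a) * (∑' c : Fin k → α, (∏ j, p (c j)) * X k c) := by
  have hw := pk_hasSum hp0 hp1 k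
  have hw0 := prod_wt_nonneg hp0 k
  have hYs := (summable_wt hp0 hp1.summable hy0 hy1).hasSum
  have hMs := (summable_wt hw0 hw.summable (hX0 k) (hX1 k)).hasSum
  have hpy0 : ∀ a, 0 ≤ p a * y a := fun a => mul_nonneg (hp0 a) (hy0 a)
  have hwX0 : ∀ c : Fin k → α, 0 ≤ (∏ j, p (c j)) * X k c :=
    fun c => mul_nonneg (hw0 c) (hX0 k c)
  have T1 := hasSum_cons hYs hw hpy0 hw0
  have T2 := hasSum_cons hp1 hMs hp0 hwX0
  have T3 := hasSum_cons hYs hMs hpy0 hwX0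
  have T := (T1.add T2).sub (T3.mul_left (1 / 10))
  have hL := (summable_wt (prod_wt_nonneg hp0 (k + 1)) (pk_hasSum hp0 hp1 (k + 1)).summable
    (hX0 (k + 1)) (hX1 (k + 1))).hasSum
  have key := hasSum_le (fun c => ?_) hL T
  · linarith
  · have h1 := mul_le_mul_of_nonneg_left (hstep k c) (prod_wt_nonneg hp0 (k + 1) c)
    refine h1.trans (le_of_eq ?_)
    rw [prod_wt_succ]
    ring

theorem sig_le (hp0 : ∀ a, 0 ≤ p a) (hp1 : HasSum p 1) (d : ℝ) (hd : 0 ≤ d)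
    (y : α → ℝ) (hy0 : ∀ a, 0 ≤ y a) (hy1 : ∀ a, y a ≤ 1)
    (X : (k : ℕ) → (Fin k → α) → ℝ) (hX0 : ∀ k c, 0 ≤ X k c) (hX1 : ∀ k c, X k c ≤ 1)
    (hzero : ∀ c, X 0 c = 0)
    (hstep : ∀ k (c : Fin (k + 1) → α),
      X (k + 1) c ≤ y (c 0) + X k (Fin.tail c) - 1 / 10 * y (c 0) * X k (Fin.tail c)) :
    ∑' T : Σ k : ℕ, (Fin k → α), pois d T.1 * (∏ j, p (T.2 j)) * X T.1 T.2 ≤
      d * (∑' a, p a * y a) - pois d 2 / 10 * (∑' a, p a * y a) ^ 2 := by
  set Y := ∑' a, p a * y a with hY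
  set M : ℕ → ℝ := fun k => ∑' c : Fin k → α, (∏ j, p (c j)) * X k c with hM
  have hY0 : 0 ≤ Y := tsum_wt_nonneg hp0 hy0
  have hY1 : Y ≤ 1 := tsum_wt_le_one hp0 hp1 hy0 hy1
  have hM0 : ∀ k, 0 ≤ M k := fun k => tsum_wt_nonneg (prod_wt_nonneg hp0 k) (hX0 k)
  have hM1 : ∀ k, M k ≤ 1 := fun k =>
    tsum_wt_le_one (prod_wt_nonneg hp0 k) (pk_hasSum hp0 hp1 k) (hX0 k) (hX1 k)
  have hMz : M 0 = 0 := by
    simp only [hM, hzero, mul_zero, tsum_zero]
  have hMs : ∀ k, M (k + 1) ≤ Y + M k - 1 / 10 * Y * M k :=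
    fun k => Mk_step hp0 hp1 y hy0 hy1 X hX0 hX1 hstep k
  have hMk : ∀ k : ℕ, M k ≤ k * Y := by
    intro k
    induction k with
    | zero => simp [hMz]
    | succ k ih =>
      have h1 := hMs k
      have h2 : 0 ≤ Y * M k := mul_nonneg hY0 (hM0 k)
      push_cast
      nlinarith
  have hM2 : M 2 ≤ 2 * Y - Y ^ 2 / 10 := by
    have h1 := hMs 0
    have h2 := hMs 1
    rw [hMz] at h1
    simp only [zero_add] at h1 h2
    have h3 : M 1 ≤ Y := by linarith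
    have h4 : 0 ≤ (Y - M 1) * (1 - Y / 10) := mul_nonneg (by linarith) (by linarith)
    have h5 : M (1 + 1) = M 2 := rfl
    rw [h5] at h2
    nlinarith
  -- rewrite the left-hand side
  have hsig := sig_hasSum hp0 hp1 d hd
  have hsum : Summable (fun T : Σ k : ℕ, (Fin k → α) =>
      pois d T.1 * (∏ j, p (T.2 j)) * X T.1 T.2) :=
    summable_wt (fun T => mul_nonneg (pois_nonneg d hd T.1) (prod_wt_nonneg hp0 T.1 T.2))
      hsig.summable (fun T => hX0 T.1 T.2) (fun T => hX1 T.1 T.2)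
  have hfib : ∀ k : ℕ, HasSum (fun c : Fin k → α => pois d k * (∏ j, p (c j)) * X k c)
      (pois d k * M k) := by
    intro k
    have h := ((summable_wt (prod_wt_nonneg hp0 k) (pk_hasSum hp0 hp1 k).summable
      (hX0 k) (hX1 k)).hasSum).mul_left (pois d k)
    simpa only [mul_assoc] using h
  have hL : HasSum (fun k : ℕ => pois d k * M k)
      (∑' T : Σ k : ℕ, (Fin k → α), pois d T.1 * (∏ j, p (T.2 j)) * X T.1 T.2) :=
    hsum.hasSum.sigma hfib
  have hR : HasSum (fun k : ℕ => pois d k * k * Y - (if k = 2 then pois d 2 / 10 * Y ^ 2 else 0))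
      (d * Y - pois d 2 / 10 * Y ^ 2) :=
    ((pois_mean d).mul_right Y).sub (hasSum_ite_eq 2 (pois d 2 / 10 * Y ^ 2))
  refine hasSum_le (fun k => ?_) hL hR
  have hpk := pois_nonneg d hd k
  by_cases hk : k = 2
  · subst hk
    simp only [if_true]
    have := mul_le_mul_of_nonneg_left hM2 hpk
    push_cast
    nlinarith
  · simp only [if_neg hk, sub_zero]
    have := mul_le_mul_of_nonneg_left (hMk k) hpk
    nlinarith

end Vale.Agent.P154
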