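import Vale.Agent.P154.GW.Defs

/-!
# P154, Galton-Watson: sums over a Poisson number of independent copies (abstract, no trees)

`α` any type, `p : α → ℝ` nonnegative with `HasSum p 1`.
* jensen_sq: the square of the p-mean of a is at most the p-mean of a squared (nonnegativity of the variance).
-/

namespace Vale.Agent.P154

open Finset

variable {α : Type} {p : α → ℝ}

theorem jensen_sq (hp0 : ∀ a, 0 ≤ p a) (hp1 : HasSum p 1) (a x : α → ℝ) (ha0 : ∀ t, 0 ≤ a t)
    (hax : ∀ t, a t ^ 2 ≤ x t / 2) (hx1 : ∀ t, x t ≤ 1) :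
    0 ≤ ∑' t, p t * a t ∧ (∑' t, p t * a t) ^ 2 ≤ (∑' t, p t * x t) / 2 := by
  have hps : Summable p := hp1.summable
  have hx0 : ∀ t, 0 ≤ x t := fun t => by
    have h1 := hax t
    have h2 : 0 ≤ a t ^ 2 := sq_nonneg _
    linarith
  have ha1 : ∀ t, a t ≤ 1 := fun t => by
    have h1 := hax t
    have h2 := hx1 t
    have h3 := ha0 t
    nlinarith
  have hsa : Summable (fun t => p t * a t) :=
    Summable.of_nonneg_of_le (fun t => mul_nonneg (hp0 t) (ha0 t))
      (fun t => by
        have := mul_le_mul_of_nonneg_left (ha1 t) (hp0 t)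
        simpa using this) hps
  have hsx : Summable (fun t => p t * x t) :=
    Summable.of_nonneg_of_le (fun t => mul_nonneg (hp0 t) (hx0 t))
      (fun t => by
        have := mul_le_mul_of_nonneg_left (hx1 t) (hp0 t)
        simpa using this) hps
  have hsa2 : Summable (fun t => p t * a t ^ 2) :=
    Summable.of_nonneg_of_le (fun t => mul_nonneg (hp0 t) (sq_nonneg _))
      (fun t => by
        have h1 : a t ^ 2 ≤ 1 := by
          have := hax t
          have := hx1 t
          linarith
        have := mul_le_mul_of_nonneg_left h1 (hp0 t)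
        simpa using this) hps
  have hm0 : 0 ≤ ∑' t, p t * a t := tsum_nonneg (fun t => mul_nonneg (hp0 t) (ha0 t))
  refine ⟨hm0, ?_⟩
  set m : ℝ := ∑' t, p t * a t with hm
  -- the variance is nonnegative
  have hvar : HasSum (fun t => p t * (a t - m) ^ 2)
      ((∑' t, p t * a t ^ 2) - 2 * m * m + m ^ 2 * 1) := by
    have h1 : HasSum (fun t => p t * a t ^ 2) (∑' t, p t * a t ^ 2) := hsa2.hasSum
    have h2 : HasSum (fun t => 2 * m * (p t * a t)) (2 * m * m) := by
      have := hsa.hasSum.mul_left (2 * m)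
      simpa [hm] using this
    have h3 : HasSum (fun t => m ^ 2 * p t) (m ^ 2 * 1) := hp1.mul_left (m ^ 2)
    have h4 := (h1.sub h2).add h3
    refine h4.congr_fun ?_ |> fun h => h
    intro t
    ring
  have hvar0 : 0 ≤ (∑' t, p t * a t ^ 2) - 2 * m * m + m ^ 2 * 1 :=
    hvar.nonneg (fun t => mul_nonneg (hp0 t) (sq_nonneg _))
  have hle : ∑' t, p t * a t ^ 2 ≤ ∑' t, p t * (x t / 2) := by
    have hsx2 : Summable (fun t => p t * (x t / 2)) := by
      have := hsx.mul_right (1 / 2 : ℝ)
      refine this.congr ?_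
      intro t
      ring
    exact hsa2.tsum_le_tsum (fun t => mul_le_mul_of_nonneg_left (hax t) (hp0 t)) hsx2
  have heq : ∑' t, p t * (x t / 2) = (∑' t, p t * x t) / 2 := by
    have : (fun t => p t * (x t / 2)) = fun t => (p t * x t) * (1 / 2 : ℝ) := by
      funext t
      ring
    rw [this, tsum_mul_right]
    ring
  nlinarith
end Vale.Agent.P154
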