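import Vale.Agent.P154.GW.TreeTC
import Vale.Agent.P154.GW.SumC
import Vale.Agent.P154.GW.SumD
import Vale.Agent.P154.Conv

/-!
# P154, Galton-Watson: nonreconstruction for three colours, Poisson(`d`) offspring, `0 ≤ lam < 1`, `d lam^2 ≤ 1`

`XG n = ∑' T, probT d n T * xT lam n T`.
* `probT_nonneg`, `probT_hasSum` (induction on `n`; `GT 0 = Unit`: `hasSum_unique`/`hasSum_fintype`; step: `sig_hasSum`, the summand is definitionally the one of `probT`).
* `XG_step`: `sig_le` with `α = GT n`, `p = probT d n`, `y = lam^2 * xT lam n`, `X = XK lam n`, and `xT_succ`; `∑' p * (lam^2 x) = lam^2 XG n` (`tsum_mul_left`).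
* `XG → 0`: `seq_zeroGW` if `0 < lam` (`c = pois d 2 / 10 * lam^4 > 0`), trivial if `lam = 0`.
* `aGW^2 ≤ XG / 2`: `jensen_sq` with `aT_sq_le`; conclude with `tendsto_of_sq_le`.
-/

namespace Vale.Agent.P154

open Filter Topology

theorem seq_zeroGW (x : ℕ → ℝ) (ρ c : ℝ) (hρ : ρ ≤ 1) (hc : 0 < c) (h0 : ∀ n, 0 ≤ x n)
    (hs : ∀ n, x (n + 1) ≤ ρ * x n - c * x n ^ 2) : Tendsto x atTop (𝓝 0) := by
  apply seq_zero x c hc h0
  intro n
  have h1 := hs n
  have h2 : ρ * x n ≤ 1 * x n := mul_le_mul_of_nonneg_right hρ (h0 n)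
  linarith

noncomputable def XG (d lam : ℝ) (n : ℕ) : ℝ := ∑' T : GT n, probT d n T * xT lam n T

theorem probT_nonneg (d : ℝ) (hd : 0 ≤ d) (n : ℕ) (T : GT n) : 0 ≤ probT d n T := by
  induction n with
  | zero => exact zero_le_one
  | succ n ih =>
    change 0 ≤ pois d T.1 * ∏ j, probT d n (T.2 j)
    exact mul_nonneg (pois_nonneg d hd _) (Finset.prod_nonneg fun j _ => ih _)

theorem probT_hasSum (d : ℝ) (hd : 0 ≤ d) (n : ℕ) : HasSum (probT d n) 1 := by
  induction n with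
  | zero =>
    have : Unique (GT 0) := inferInstanceAs (Unique Unit)
    have h := hasSum_unique (probT d 0)
    simpa [probT] using h
  | succ n ih =>
    exact sig_hasSum (probT_nonneg d hd n) ih d hd

theorem summable_probT_mul (d : ℝ) (hd : 0 ≤ d) (n : ℕ) (f : GT n → ℝ) (hf0 : ∀ T, 0 ≤ f T)
    (hf1 : ∀ T, f T ≤ 1) : Summable (fun T => probT d n T * f T) := by
  refine Summable.of_nonneg_of_le (fun T => mul_nonneg (probT_nonneg d hd n T) (hf0 T)) (fun T => ?_)
    (probT_hasSum d hd n).summable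
  have := mul_le_mul_of_nonneg_left (hf1 T) (probT_nonneg d hd n T)
  rwa [mul_one] at this

theorem XG_nonneg (d lam : ℝ) (hd : 0 ≤ d) (h0 : 0 ≤ lam) (h1 : lam < 1) (n : ℕ) : 0 ≤ XG d lam n := by
  unfold XG
  exact tsum_nonneg fun T => mul_nonneg (probT_nonneg d hd n T) (xT_nonneg lam h0 h1 n T)

theorem XG_step (d lam : ℝ) (hd : 0 ≤ d) (h0 : 0 ≤ lam) (h1 : lam < 1) (n : ℕ) :
    XG d lam (n + 1) ≤ d * lam ^ 2 * XG d lam n - pois d 2 / 10 * lam ^ 4 * XG d lam n ^ 2 := by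
  have hl2 : lam ^ 2 ≤ 1 := by nlinarith
  have key := sig_le (probT_nonneg d hd n) (probT_hasSum d hd n) d hd
    (fun T => lam ^ 2 * xT lam n T)
    (fun T => mul_nonneg (sq_nonneg lam) (xT_nonneg lam h0 h1 n T))
    (fun T => by
      have a := xT_nonneg lam h0 h1 n T
      have b := xT_le_one lam h0 h1 n T
      nlinarith [sq_nonneg lam])
    (XK lam n) (XK_nonneg lam h0 h1 n) (XK_le_one lam h0 h1 n) (XK_zero lam n)
    (XK_succ lam h0 h1 n)
  have e1 : XG d lam (n + 1) =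
      ∑' T : Σ k : ℕ, (Fin k → GT n), pois d T.1 * (∏ j, probT d n (T.2 j)) * XK lam n T.1 T.2 := by
    unfold XG
    refine tsum_congr fun T => ?_
    rw [xT_succ lam h0 h1 n T]
    rfl
  have e2 : ∑' a, probT d n a * (lam ^ 2 * xT lam n a) = lam ^ 2 * XG d lam n := by
    unfold XG
    rw [← tsum_mul_left]
    refine tsum_congr fun T => ?_
    ring
  rw [e1]
  rw [e2] at key
  calc _ ≤ _ := key
    _ = _ := by ring

theorem XG_tendsto (d lam : ℝ) (hd : 0 < d) (h0 : 0 ≤ lam) (h1 : lam < 1) (h2 : d * lam ^ 2 ≤ 1) :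
    Tendsto (XG d lam) atTop (𝓝 0) := by
  rcases h0.eq_or_lt with h | h
  · have hz : ∀ n, XG d lam (n + 1) = 0 := by
      intro n
      have a := XG_step d lam hd.le h0 h1 n
      rw [← h] at a
      have b := XG_nonneg d lam hd.le h0 h1 (n + 1)
      rw [← h] at b ⊢
      apply le_antisymm _ b
      simpa using a
    rw [← tendsto_add_atTop_iff_nat 1]
    simp only [hz]
    exact tendsto_const_nhds
  · have hp : 0 < pois d 2 := by
      unfold pois
      positivity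
    exact seq_zeroGW (XG d lam) (d * lam ^ 2) (pois d 2 / 10 * lam ^ 4) h2 (by positivity)
      (XG_nonneg d lam hd.le h0 h1) (XG_step d lam hd.le h0 h1)

theorem gw_nonreconstruction (d lam : ℝ) (hd : 0 < d) (h0 : 0 ≤ lam) (h1 : lam < 1)
    (h2 : d * lam ^ 2 ≤ 1) : Tendsto (fun n => aGW 3 d lam n) atTop (𝓝 0) := by
  have hj : ∀ n, 0 ≤ aGW 3 d lam n ∧ aGW 3 d lam n ^ 2 ≤ XG d lam n / 2 := by
    intro n
    exact jensen_sq (probT_nonneg d hd.le n) (probT_hasSum d hd.le n) (aT 3 lam n) (xT lam n)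
      (fun T => (aT_sq_le lam h0 h1 n T).1) (fun T => (aT_sq_le lam h0 h1 n T).2)
      (xT_le_one lam h0 h1 n)
  exact tendsto_of_sq_le _ _ (fun n => (hj n).1) (fun n => (hj n).2) (XG_tendsto d lam hd h0 h1 h2)

end Vale.Agent.P154
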