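import Vale.Agent.P154.G.MergeB

/-!
# P154, Galton-Watson: observing `k` independent, possibly different, experiments

`(W j, E j)` on `F j`, `j : Fin k`: `Good`, strictly inside the simplex, `Inv`.  The combined experiment lives on `∀ j, F j`:
`sD E η = (∑ i, ∏ j, (1 + E j (η j) i)) / 3`, `wD W E η = (∏ j, W j (η j)) * sD E η`, `eD E η i = (∏ j, (1 + E j (η j) i)) / sD E η - 1`.
`cE F = (Fin.consEquiv F).symm : (∀ j, F j) ≃ F 0 × (∀ j, F j.succ)`, `η ↦ (η 0, Fin.tail η)`.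
* `sD_pos`: all factors are positive.
* `wD_succ`, `eD_succ` (`Fin.prod_univ_succ`, `Fin.sum_univ_three`, `(h 0).zero`): the experiment of `k + 1` pieces is the combination (`wMW`, `eMW`) of
  the piece `0` and the experiment of the `k` other pieces:  `sD E η = sD (tail E) (tail η) * Z3 (E 0 (η 0)) (eD (tail E) (tail η))`.
* `prodD_zero`: for `k = 0` the index type has one element, `wD = 1`, `eD = 0`, `Xf = 0`, `HfW = 1`.
* `prodD_all`: induction on `k` (generalising `F W E`) with `Good.mergeW`, `Inv.mergeW`, `Good.of_equiv`, `Xf_equiv`, `Hf_equiv`.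
* `prodD_step`: `merge_X`.
(The same computation for `k` equal pieces is in `G/ProdA.lean`, `G/ProdB.lean` and in helper55's `Gen/Star.lean`, `Gen/StarInd.lean`.)
-/

namespace Vale.Agent.P154

open Finset

noncomputable def sD {k : ℕ} {F : Fin k → Type} (E : ∀ j, F j → Fin 3 → ℝ) (η : ∀ j, F j) : ℝ :=
  (∑ i : Fin 3, ∏ j, (1 + E j (η j) i)) / 3

noncomputable def wD {k : ℕ} {F : Fin k → Type} (W : ∀ j, F j → ℝ) (E : ∀ j, F j → Fin 3 → ℝ)
    (η : ∀ j, F j) : ℝ :=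
  (∏ j, W j (η j)) * sD E η

noncomputable def eD {k : ℕ} {F : Fin k → Type} (E : ∀ j, F j → Fin 3 → ℝ) (η : ∀ j, F j) (i : Fin 3) : ℝ :=
  (∏ j, (1 + E j (η j) i)) / sD E η - 1

/-- splitting off the first coordinate -/
def cE {k : ℕ} (F : Fin (k + 1) → Type) : (∀ j, F j) ≃ F 0 × (∀ j : Fin k, F j.succ) :=
  (Fin.consEquiv F).symm

theorem cE_apply {k : ℕ} (F : Fin (k + 1) → Type) (η : ∀ j, F j) : cE F η = (η 0, Fin.tail η) := rfl

theorem Hf_equiv' {ι κ : Type} [Fintype ι] [Fintype κ] (φ : κ ≃ ι) (w : ι → ℝ) (e : ι → Fin 3 → ℝ) :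
    HfW (fun k => w (φ k)) (fun k => e (φ k)) = HfW w e := by
  unfold HfW
  exact Equiv.sum_comp φ (fun η => w η * hh (e η 0) (e η 1) (e η 2))

theorem sD_pos {k : ℕ} {F : Fin k → Type} (E : ∀ j, F j → Fin 3 → ℝ) (hs : ∀ j η i, -1 < E j η i)
    (η : ∀ j, F j) : 0 < sD E η := by
  unfold sD
  have hp : ∀ i : Fin 3, 0 < ∏ j, (1 + E j (η j) i) := by
    intro i
    refine Finset.prod_pos fun j _ => ?_
    have := hs j (η j) i
    linarith
  rw [Fin.sum_univ_three]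
  have h0 := hp 0
  have h1 := hp 1
  have h2 := hp 2
  positivity

theorem sD_succ {k : ℕ} {F : Fin (k + 1) → Type} [∀ j, Fintype (F j)] (W : ∀ j, F j → ℝ)
    (E : ∀ j, F j → Fin 3 → ℝ) (h : ∀ j, Good (W j) (E j)) (hs : ∀ j η i, -1 < E j η i) (η : ∀ j, F j) :
    sD E η = sD (fun j : Fin k => E j.succ) (Fin.tail η)
      * ZMW (E 0) (eD (fun j : Fin k => E j.succ)) (cE F η) := by
  have hpos := sD_pos (fun j : Fin k => E j.succ) (fun j => hs j.succ) (Fin.tail η)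
  have hz := (h 0).zero (η 0)
  rw [cE_apply]
  unfold ZMW Z3 eD
  simp only
  set s' := sD (fun j : Fin k => E j.succ) (Fin.tail η) with hs'
  have hs'' : s' = (∑ i : Fin 3, ∏ j : Fin k, (1 + E j.succ (η j.succ) i)) / 3 := by
    rw [hs']
    rfl
  have hne : s' ≠ 0 := hpos.ne'
  unfold sD
  rw [Fin.sum_univ_three, Fin.prod_univ_succ, Fin.prod_univ_succ, Fin.prod_univ_succ]
  rw [Fin.sum_univ_three] at hs''
  have t0 : ∀ i : Fin 3, ∏ j : Fin k, (1 + E j.succ (Fin.tail η j) i)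
      = ∏ j : Fin k, (1 + E j.succ (η j.succ) i) := fun i => rfl
  simp only [t0]
  set P0 := ∏ j : Fin k, (1 + E j.succ (η j.succ) 0)
  set P1 := ∏ j : Fin k, (1 + E j.succ (η j.succ) 1)
  set P2 := ∏ j : Fin k, (1 + E j.succ (η j.succ) 2)
  set a0 := E 0 (η 0) 0
  set a1 := E 0 (η 0) 1
  set a2 := E 0 (η 0) 2
  have e1 : s' * (1 + (a0 * (P0 / s' - 1) + a1 * (P1 / s' - 1) + a2 * (P2 / s' - 1)) / 3)
      = s' + (a0 * P0 + a1 * P1 + a2 * P2) / 3 - s' * (a0 + a1 + a2) / 3 := by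
    field_simp
    ring
  rw [e1, hz, hs'']
  ring

theorem wD_succ {k : ℕ} {F : Fin (k + 1) → Type} [∀ j, Fintype (F j)] (W : ∀ j, F j → ℝ)
    (E : ∀ j, F j → Fin 3 → ℝ) (h : ∀ j, Good (W j) (E j)) (hs : ∀ j η i, -1 < E j η i) (η : ∀ j, F j) :
    wD W E η = wMW (W 0) (E 0) (wD (fun j : Fin k => W j.succ) (fun j : Fin k => E j.succ))
      (eD (fun j : Fin k => E j.succ)) (cE F η) := by
  unfold wMW
  rw [show wD W E η = (∏ j, W j (η j)) * sD E η from rfl, sD_succ W E h hs η, Fin.prod_univ_succ]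
  rw [show (cE F η).1 = η 0 from rfl, show (cE F η).2 = Fin.tail η from rfl]
  rw [show wD (fun j : Fin k => W j.succ) (fun j : Fin k => E j.succ) (Fin.tail η)
      = (∏ j : Fin k, W j.succ (η j.succ)) * sD (fun j : Fin k => E j.succ) (Fin.tail η) from rfl]
  ring

theorem eD_succ {k : ℕ} {F : Fin (k + 1) → Type} [∀ j, Fintype (F j)] (W : ∀ j, F j → ℝ)
    (E : ∀ j, F j → Fin 3 → ℝ) (h : ∀ j, Good (W j) (E j)) (hs : ∀ j η i, -1 < E j η i) (η : ∀ j, F j) :
    eD E η = eMW (E 0) (eD (fun j : Fin k => E j.succ)) (cE F η) := by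
  funext i
  unfold eMW
  rw [show eD E η i = (∏ j, (1 + E j (η j) i)) / sD E η - 1 from rfl, sD_succ W E h hs η,
    Fin.prod_univ_succ]
  rw [show (cE F η).1 = η 0 from rfl, show (cE F η).2 = Fin.tail η from rfl]
  rw [show eD (fun j : Fin k => E j.succ) (Fin.tail η) i
      = (∏ j : Fin k, (1 + E j.succ (η j.succ) i)) / sD (fun j : Fin k => E j.succ) (Fin.tail η) - 1
      from rfl]
  rw [← div_div]
  ring

theorem sD_zero' {F : Fin 0 → Type} (E : ∀ j, F j → Fin 3 → ℝ) (η : ∀ j, F j) : sD E η = 1 := by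
  unfold sD
  simp

theorem wD_zero' {F : Fin 0 → Type} (W : ∀ j, F j → ℝ) (E : ∀ j, F j → Fin 3 → ℝ) (η : ∀ j, F j) :
    wD W E η = 1 := by
  unfold wD
  rw [sD_zero']
  simp

theorem eD_zero' {F : Fin 0 → Type} (E : ∀ j, F j → Fin 3 → ℝ) (η : ∀ j, F j) (i : Fin 3) :
    eD E η i = 0 := by
  unfold eD
  rw [sD_zero']
  simp

theorem prodD_zero {F : Fin 0 → Type} [∀ j, Fintype (F j)] (W : ∀ j, F j → ℝ)
    (E : ∀ j, F j → Fin 3 → ℝ) :
    Good (wD W E) (eD E) ∧ Inv (wD W E) (eD E) ∧ Xf (wD W E) (eD E) = 0 := by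
  have hX : Xf (wD W E) (eD E) = 0 := by
    unfold Xf
    simp [eD_zero', al3]
  have hH : HfW (wD W E) (eD E) = 1 := by
    unfold HfW
    simp [eD_zero', wD_zero', hh, al3]
  refine ⟨⟨?_, ?_, ?_, ?_, ?_, ?_⟩, ?_, hX⟩
  · intro η
    rw [wD_zero']
    exact one_pos
  · simp [wD_zero']
  · intro η
    simp [eD_zero']
  · intro η i
    rw [eD_zero']
    norm_num
  · intro f
    simp [eD_zero']
  · intro f
    simp [eD_zero']
  · unfold Inv
    rw [hX, hH]
    norm_num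

theorem prodD_all : ∀ (k : ℕ) (F : Fin k → Type) [∀ j, Fintype (F j)] (W : ∀ j, F j → ℝ)
    (E : ∀ j, F j → Fin 3 → ℝ), (∀ j, Good (W j) (E j)) → (∀ j η i, -1 < E j η i) →
    (∀ j, Inv (W j) (E j)) → Good (wD W E) (eD E) ∧ Inv (wD W E) (eD E) := by
  intro k
  induction k with
  | zero =>
    intro F _ W E _ _ _
    exact ⟨(prodD_zero W E).1, (prodD_zero W E).2.1⟩
  | succ k ih =>
    intro F _ W E h hs hi
    obtain ⟨g, iv⟩ := ih (fun j => F j.succ) (fun j => W j.succ) (fun j => E j.succ)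
      (fun j => h j.succ) (fun j => hs j.succ) (fun j => hi j.succ)
    have hw : wD W E = fun η => wMW (W 0) (E 0) (wD (fun j : Fin k => W j.succ)
        (fun j : Fin k => E j.succ)) (eD (fun j : Fin k => E j.succ)) (cE F η) :=
      funext (wD_succ W E h hs)
    have he : eD E = fun η => eMW (E 0) (eD (fun j : Fin k => E j.succ)) (cE F η) :=
      funext (eD_succ W E h hs)
    rw [hw, he]
    refine ⟨Good.of_equiv (cE F) (Good.mergeW (h 0) (hs 0) g), ?_⟩
    have := Inv.mergeW (h 0) (hs 0) g (hi 0) iv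
    unfold Inv at this ⊢
    rw [Xf_equiv (cE F), Hf_equiv' (cE F)]
    exact this

theorem prodD_step {k : ℕ} {F : Fin (k + 1) → Type} [∀ j, Fintype (F j)] (W : ∀ j, F j → ℝ)
    (E : ∀ j, F j → Fin 3 → ℝ) (h : ∀ j, Good (W j) (E j)) (hs : ∀ j η i, -1 < E j η i)
    (hi : ∀ j, Inv (W j) (E j)) :
    Xf (wD W E) (eD E) ≤ Xf (W 0) (E 0)
      + Xf (wD (fun j : Fin k => W j.succ) (fun j : Fin k => E j.succ)) (eD (fun j : Fin k => E j.succ))
      - 1 / 10 * Xf (W 0) (E 0)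
        * Xf (wD (fun j : Fin k => W j.succ) (fun j : Fin k => E j.succ)) (eD (fun j : Fin k => E j.succ)) := by
  obtain ⟨g, iv⟩ := prodD_all k (fun j => F j.succ) (fun j => W j.succ) (fun j => E j.succ)
    (fun j => h j.succ) (fun j => hs j.succ) (fun j => hi j.succ)
  have hw : wD W E = fun η => wMW (W 0) (E 0) (wD (fun j : Fin k => W j.succ)
      (fun j : Fin k => E j.succ)) (eD (fun j : Fin k => E j.succ)) (cE F η) :=
    funext (wD_succ W E h hs)
  have he : eD E = fun η => eMW (E 0) (eD (fun j : Fin k => E j.succ)) (cE F η) :=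
    funext (eD_succ W E h hs)
  rw [hw, he, Xf_equiv (cE F)]
  exact merge_X (h 0) (hs 0) g (hi 0) iv

end Vale.Agent.P154
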