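import Vale.Agent.P154.GW.Defs

/-!
# P154, Galton-Watson: sums over a Poisson number of independent copies (abstract, no trees)

`α` any type, `p : α → ℝ` nonnegative with `HasSum p 1`.
* `pois_hasSum`, `pois_mean`: `∑ pois d k = 1`, `∑ pois d k * k = d`  (`NormedSpace.expSeries_div_hasSum_exp`, `Real.exp_eq_exp_ℝ`; see
  `ProbabilityTheory.hasSum_one_poissonMeasure` in Mathlib; for the mean shift the index: `pois d (k+1) * (k+1) = d * pois d k`,
  `hasSum_nat_add_iff' 1` or `(hasSum_nat_add_iff 1)`).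
* `pk_hasSum`: `HasSum (fun c : Fin k → α => ∏ j, p (c j)) 1`, induction on `k`: `Fin.consEquiv`, `Fin.prod_univ_succ`, `HasSum.mul` with
  `Summable.mul_of_nonneg`, `Equiv.hasSum_iff`.
* `sig_hasSum`: `HasSum (fun T : Σ k, (Fin k → α) => pois d T.1 * ∏ j, p (T.2 j)) 1`: `HasSum.sigma_of_hasSum`, `summable_sigma_of_nonneg`.
* `Mk_step`: with `M k = ∑' c : Fin k → α, (∏ j, p (c j)) * X k c`, `Y = ∑' a, p a * y a`:  `M (k+1) ≤ Y + M k - Y * M k / 10`
  (sum the hypothesis `hstep` against the product weights; all functions are bounded by the weights, hence summable; the right-hand side factors).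
* `Mk_le`: `M k ≤ k Y` and `M 2 ≤ 2 Y - Y^2/10`  (`0 ≤ M k`, `0 ≤ Y ≤ 1`).
* `sig_le`: `∑' T, pois d T.1 * (∏ p) * X T.1 T.2 = ∑' k, pois d k * M k ≤ ∑' k, pois d k * (k Y - [k = 2] Y^2/10) = d Y - pois d 2 * Y^2/10`.
* `jensen_sq`: `(∑' p a)^2 ≤ ∑' p a^2` from `0 ≤ ∑' p (a - m)^2`.
-/

namespace Vale.Agent.P154

open Finset

theorem pois_nonneg (d : ℝ) (hd : 0 ≤ d) (k : ℕ) : 0 ≤ pois d k := by
  unfold pois
  positivity

theorem pois_hasSum (d : ℝ) : HasSum (pois d) 1 := by
  have h1 := (NormedSpace.expSeries_div_hasSum_exp (d : ℝ)).mul_left (Real.exp (-d))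
  have e1 : pois d = fun k : ℕ => Real.exp (-d) * (d ^ k / (Nat.factorial k : ℝ)) := by
    funext k
    unfold pois
    ring
  have e2 : (1 : ℝ) = Real.exp (-d) * NormedSpace.exp d := by
    rw [← congrFun Real.exp_eq_exp_ℝ d, ← Real.exp_add]
    simp
  rw [e1, e2]
  exact h1

theorem pois_mean (d : ℝ) : HasSum (fun k : ℕ => pois d k * k) d := by
  have h1 : HasSum (fun k : ℕ => pois d (k + 1) * ((k + 1 : ℕ) : ℝ)) d := by
    have h2 := (pois_hasSum d).mul_left d
    rw [mul_one] at h2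
    have e1 : (fun k : ℕ => pois d (k + 1) * ((k + 1 : ℕ) : ℝ)) = fun k : ℕ => d * pois d k := by
      funext k
      unfold pois
      rw [Nat.factorial_succ]
      have hk : ((k + 1 : ℕ) : ℝ) ≠ 0 := by positivity
      have hf : ((Nat.factorial k : ℕ) : ℝ) ≠ 0 := by positivity
      push_cast
      push_cast at hk
      field_simp
      ring
    rw [e1]
    exact h2
  have h3 := (hasSum_nat_add_iff (f := fun k : ℕ => pois d k * k) 1).1 h1
  simpa using h3

end Vale.Agent.P154
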