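import Vale.Agent.P154.GW.SumA

/-!
# P154, Galton-Watson: sums over a Poisson number of independent copies (abstract, no trees)

`α` any type, `p : α → ℝ` nonnegative with `HasSum p 1`.
* `pois_hasSum`, `pois_mean`: `∑ pois d k = 1`, `∑ pois d k * k = d`  (`NormedSpace.expSeries_div_hasSum_exp`, `Real.exp_eq_exp_ℝ`; see
  `ProbabilityTheory.hasSum_one_poissonMeasure` in Mathlib; for the mean shift the index: `pois d (k+1) * (k+1) = d * pois d k`,
  `hasSum_nat_add_iff' 1` or `(hasSum_nat_add_iff 1)`).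
* `pk_hasSum`: `HasSum (fun c : Fin k → α => ∏ j, p (c j)) 1`, induction on `k`: `Fin.consEquiv`, `Fin.prod_univ_succ`, `HasSum.mul` with
  `Summable.mul_of_nonneg`, `Equiv.hasSum_iff`.
* `sig_hasSum`: `HasSum (fun T : Σ k, (Fin k → α) => pois d T.1 * ∏ j, p (T.2 j)) 1`: `HasSum.sigma_of_hasSum`, `summable_sigma_of_nonneg`.
* `Mk_step`: with `M k = ∑' c : Fin k → α, (∏ j, p (c j)) * X k c`, `Y = ∑' a, p a * y a`:  `M (k+1) ≤ Y + M k - Y * M k / 10`
  (sum the hypothesis `hstep` against the product weights; all functions are bounded by the weights, hence summable; the right-hand side factors).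
* `Mk_le`: `M k ≤ k Y` and `M 2 ≤ 2 Y - Y^2/10`  (`0 ≤ M k`, `0 ≤ Y ≤ 1`).
* `sig_le`: `∑' T, pois d T.1 * (∏ p) * X T.1 T.2 = ∑' k, pois d k * M k ≤ ∑' k, pois d k * (k Y - [k = 2] Y^2/10) = d Y - pois d 2 * Y^2/10`.
* `jensen_sq`: `(∑' p a)^2 ≤ ∑' p a^2` from `0 ≤ ∑' p (a - m)^2`.
-/

namespace Vale.Agent.P154

open Finset

variable {α : Type} {p : α → ℝ}

theorem hasSum_pi_prod {α : Type} (g : α → ℝ) (s : ℝ) (hg0 : ∀ a, 0 ≤ g a) (hg : HasSum g s) (k : ℕ) :
    HasSum (fun c : Fin k → α => ∏ j, g (c j)) (s ^ k) := by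
  induction k with
  | zero =>
    have := hasSum_unique (fun c : Fin 0 → α => ∏ j, g (c j))
    simpa using this
  | succ k ih =>
    set G : (Fin k → α) → ℝ := fun c => ∏ j, g (c j) with hG
    have hnn : ∀ c : Fin k → α, 0 ≤ G c := fun c => Finset.prod_nonneg fun j _ => hg0 _
    have hsum : Summable fun x : α × (Fin k → α) => g x.1 * G x.2 :=
      Summable.mul_of_nonneg (f := g) (g := G) hg.summable ih.summable hg0 hnn
    have h1 : HasSum (fun x : α × (Fin k → α) => g x.1 * G x.2) (s * s ^ k) := hg.mul ih hsum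
    have h2 := (Equiv.hasSum_iff (Fin.consEquiv (fun _ : Fin (k + 1) => α)).symm
      (f := fun x : α × (Fin k → α) => g x.1 * G x.2) (a := s * s ^ k)).2 h1
    rw [pow_succ']
    convert h2 using 1
    funext c
    simp only [Function.comp, hG]
    rw [Fin.prod_univ_succ]
    rfl

theorem pk_hasSum (hp0 : ∀ a, 0 ≤ p a) (hp1 : HasSum p 1) (k : ℕ) :
    HasSum (fun c : Fin k → α => ∏ j, p (c j)) 1 := by
  have := hasSum_pi_prod p 1 hp0 hp1 k
  rwa [one_pow] at this

theorem sig_hasSum (hp0 : ∀ a, 0 ≤ p a) (hp1 : HasSum p 1) (d : ℝ) (hd : 0 ≤ d) :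
    HasSum (fun T : Σ k : ℕ, (Fin k → α) => pois d T.1 * ∏ j, p (T.2 j)) 1 := by
  have hk : ∀ k : ℕ, HasSum (fun c : Fin k → α => pois d k * ∏ j, p (c j)) (pois d k) := by
    intro k
    have := (pk_hasSum hp0 hp1 k).mul_left (pois d k)
    rwa [mul_one] at this
  have hnn : ∀ T : Σ k : ℕ, (Fin k → α), 0 ≤ pois d T.1 * ∏ j, p (T.2 j) := by
    intro T
    exact mul_nonneg (pois_nonneg d hd _) (Finset.prod_nonneg fun j _ => hp0 _)
  have hsum : Summable (fun T : Σ k : ℕ, (Fin k → α) => pois d T.1 * ∏ j, p (T.2 j)) := by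
    rw [summable_sigma_of_nonneg hnn]
    refine ⟨fun k => (hk k).summable, ?_⟩
    have : (fun k : ℕ => ∑' c : Fin k → α, pois d k * ∏ j, p (c j)) = pois d :=
      funext fun k => (hk k).tsum_eq
    rw [this]
    exact (pois_hasSum d).summable
  exact HasSum.sigma_of_hasSum (pois_hasSum d) hk hsum

end Vale.Agent.P154
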