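import Vale.Agent.P154.GW.Defs
import Vale.Agent.P154.GW.ProdD

/-!
# P154, Galton-Watson: the experiment attached to a fixed tree

`evT lam n T η i = 3 * postT 3 lam n T i η - 1`.  Everything is as in `TreeBase.lean`, `TreeSucc.lean` (binary tree), with the product over the
`T.1` children of the root; `ConfT 3 (n+1) T = (j : Fin T.1) → ConfT 3 n (T.2 j)` definitionally, with the Pi `Fintype` instance.
* base: `ConfT 3 0 T = Fin 3`, `margT = 1/3`, `evT η i = 3 * 1{η = i} - 1`; `Good`; `Xf = 1`, `HfW = 0` (`hh = 0 / 0 = 0`), so `Inv`.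
* `likT n T i η = margT n T η * (1 + evT n T η i)` if `margT > 0`; message of a child: `∑ j, potts 3 lam i j * likT n t j ξ = margT n t ξ * (1 + lam * evT n t ξ i)`.
* hence `margT (n+1) T = wD (fun j => margT n (T.2 j)) (fun j ξ i => lam * evT n (T.2 j) ξ i)`, `evT (n+1) T = eD (...)`  (`Finset.prod_mul_distrib`).
* `treeT_good`: induction on `n` with `prodD_all`, `Good.scale`, `Good.scale_strict`, `Inv.scale`.
* `XK lam n k c` is `Xf` of the combination of the messages of the `k` trees `c j`.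
-/

namespace Vale.Agent.P154

open Finset

noncomputable def evT (lam : ℝ) (n : ℕ) (T : GT n) (η : ConfT 3 n T) (i : Fin 3) : ℝ :=
  3 * postT 3 lam n T i η - 1

noncomputable def xT (lam : ℝ) (n : ℕ) (T : GT n) : ℝ := Xf (margT 3 lam n T) (evT lam n T)

noncomputable def XK (lam : ℝ) (n k : ℕ) (c : Fin k → GT n) : ℝ :=
  Xf (wD (fun j => margT 3 lam n (c j)) (fun j ξ i => lam * evT lam n (c j) ξ i))
    (eD (fun j ξ i => lam * evT lam n (c j) ξ i))

theorem sum_confT_zero (T : GT 0) (f : ConfT 3 0 T → ℝ) :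
    ∑ η, f η = f (0 : Fin 3) + f (1 : Fin 3) + f (2 : Fin 3) :=
  Fin.sum_univ_three f

theorem likT_zero (lam : ℝ) (T : GT 0) (i η : Fin 3) :
    likT 3 lam 0 T i η = if η = i then 1 else 0 := rfl

theorem margT_zero (lam : ℝ) (T : GT 0) (η : Fin 3) : margT 3 lam 0 T η = 1 / 3 := by
  unfold margT
  rw [Fin.sum_univ_three, likT_zero, likT_zero, likT_zero]
  fin_cases η <;> simp

theorem evT_zero (lam : ℝ) (T : GT 0) (η i : Fin 3) :
    evT lam 0 T η i = 3 * (if η = i then 1 else 0) - 1 := by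
  unfold evT postT
  rw [margT_zero, likT_zero]
  push_cast
  ring

theorem baseT_good (lam : ℝ) (T : GT 0) : Good (margT 3 lam 0 T) (evT lam 0 T) := by
  refine ⟨?_, ?_, ?_, ?_, ?_, ?_⟩
  · intro η
    have h := margT_zero lam T η
    rw [h]
    norm_num
  · rw [sum_confT_zero, margT_zero, margT_zero, margT_zero]
    norm_num
  · intro η
    have h : ∀ η : Fin 3, evT lam 0 T η 0 + evT lam 0 T η 1 + evT lam 0 T η 2 = 0 := by
      intro η
      rw [evT_zero, evT_zero, evT_zero]
      fin_cases η <;> simp <;> norm_num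
    exact h η
  · intro η i
    have h := evT_zero lam T η i
    rw [h]
    split_ifs <;> norm_num
  · intro f
    rw [sum_confT_zero, sum_confT_zero]
    simp only [evT_zero, margT_zero]
    simp
    ring
  · intro f
    rw [sum_confT_zero, sum_confT_zero]
    simp only [evT_zero, margT_zero]
    simp
    ring

theorem baseT_X (lam : ℝ) (T : GT 0) : Xf (margT 3 lam 0 T) (evT lam 0 T) = 1 := by
  unfold Xf
  rw [sum_confT_zero]
  simp only [evT_zero, margT_zero, al3]
  simp
  norm_num

theorem baseT_H (lam : ℝ) (T : GT 0) : HfW (margT 3 lam 0 T) (evT lam 0 T) = 0 := by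
  unfold HfW
  rw [sum_confT_zero]
  simp only [evT_zero, margT_zero, hh]
  simp

theorem baseT_inv (lam : ℝ) (T : GT 0) : Inv (margT 3 lam 0 T) (evT lam 0 T) := by
  unfold Inv
  rw [baseT_X, baseT_H]
  norm_num

theorem aT_eq (lam : ℝ) (n : ℕ) (T : GT n) :
    aT 3 lam n T =
      ∑ η, margT 3 lam n T η * ((1 / 6) * (|evT lam n T η 0| + |evT lam n T η 1| + |evT lam n T η 2|)) := by
  unfold aT
  refine Finset.sum_congr rfl fun η _ => ?_
  rw [Fin.sum_univ_three]
  have key : ∀ i, |evT lam n T η i| = 3 * |postT 3 lam n T i η - 1 / ((3 : ℕ) : ℝ)| := by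
    intro i
    unfold evT
    have h3 : 3 * postT 3 lam n T i η - 1 = 3 * (postT 3 lam n T i η - 1 / ((3 : ℕ) : ℝ)) := by
      push_cast; ring
    rw [h3, abs_mul]
    norm_num
  rw [key, key, key]
  ring

end Vale.Agent.P154
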