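import Vale.Agent.P154.GW.TreeTA

/-!
# P154, Galton-Watson: the experiment attached to a fixed tree

`evT lam n T η i = 3 * postT 3 lam n T i η - 1`.  Everything is as in `TreeBase.lean`, `TreeSucc.lean` (binary tree), with the product over the
`T.1` children of the root; `ConfT 3 (n+1) T = (j : Fin T.1) → ConfT 3 n (T.2 j)` definitionally, with the Pi `Fintype` instance.
* base: `ConfT 3 0 T = Fin 3`, `margT = 1/3`, `evT η i = 3 * 1{η = i} - 1`; `Good`; `Xf = 1`, `HfW = 0` (`hh = 0 / 0 = 0`), so `Inv`.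
* `likT n T i η = margT n T η * (1 + evT n T η i)` if `margT > 0`; message of a child: `∑ j, potts 3 lam i j * likT n t j ξ = margT n t ξ * (1 + lam * evT n t ξ i)`.
* hence `margT (n+1) T = wD (fun j => margT n (T.2 j)) (fun j ξ i => lam * evT n (T.2 j) ξ i)`, `evT (n+1) T = eD (...)`  (`Finset.prod_mul_distrib`).
* `treeT_good`: induction on `n` with `prodD_all`, `Good.scale`, `Good.scale_strict`, `Inv.scale`.
* `XK lam n k c` is `Xf` of the combination of the messages of the `k` trees `c j`.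
-/

namespace Vale.Agent.P154

open Finset

theorem likT_eq (lam : ℝ) (n : ℕ) (T : GT n) (h : Good (margT 3 lam n T) (evT lam n T))
    (η : ConfT 3 n T) (i : Fin 3) :
    likT 3 lam n T i η = margT 3 lam n T η * (1 + evT lam n T η i) := by
  have hp := (h.pos η).ne'
  unfold evT postT
  push_cast
  field_simp
  ring

theorem msgT_eq (lam : ℝ) (n : ℕ) (T : GT n) (h : Good (margT 3 lam n T) (evT lam n T))
    (η : ConfT 3 n T) (i : Fin 3) :
    ∑ j : Fin 3, potts 3 lam i j * likT 3 lam n T j η =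
      margT 3 lam n T η * (1 + lam * evT lam n T η i) := by
  have hm : margT 3 lam n T η =
      (likT 3 lam n T 0 η + likT 3 lam n T 1 η + likT 3 lam n T 2 η) / 3 := by
    unfold margT
    rw [Fin.sum_univ_three]
    push_cast
    ring
  have hl := likT_eq lam n T h η i
  have h2 : margT 3 lam n T η * (1 + lam * evT lam n T η i) =
      lam * likT 3 lam n T i η + (1 - lam) * margT 3 lam n T η := by
    rw [hl]; ring
  rw [h2, hm, Fin.sum_univ_three]
  unfold potts
  fin_cases i <;> simp <;> ring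

theorem likT_succ (lam : ℝ) (n : ℕ) (T : GT (n + 1))
    (h : ∀ j, Good (margT 3 lam n (T.2 j)) (evT lam n (T.2 j))) (η : ConfT 3 (n + 1) T)
    (i : Fin 3) :
    likT 3 lam (n + 1) T i η =
      (∏ k : Fin T.1, margT 3 lam n (T.2 k) (η k)) *
        ∏ k : Fin T.1, (1 + lam * evT lam n (T.2 k) (η k) i) := by
  have : likT 3 lam (n + 1) T i η =
      ∏ k : Fin T.1, ∑ j : Fin 3, potts 3 lam i j * likT 3 lam n (T.2 k) j (η k) := rfl
  rw [this, ← Finset.prod_mul_distrib]
  exact Finset.prod_congr rfl (fun k _ => msgT_eq lam n (T.2 k) (h k) (η k) i)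

theorem margT_succ (lam : ℝ) (n : ℕ) (T : GT (n + 1))
    (h : ∀ j, Good (margT 3 lam n (T.2 j)) (evT lam n (T.2 j))) :
    margT 3 lam (n + 1) T =
      wD (fun j => margT 3 lam n (T.2 j)) (fun j ξ i => lam * evT lam n (T.2 j) ξ i) := by
  funext η
  have : margT 3 lam (n + 1) T η =
      ∑ i : Fin 3, (1 / ((3 : ℕ) : ℝ)) * likT 3 lam (n + 1) T i η := rfl
  rw [this, Fin.sum_univ_three, likT_succ lam n T h, likT_succ lam n T h, likT_succ lam n T h]
  simp only [wD, sD, Fin.sum_univ_three]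
  push_cast
  ring

theorem evT_succ (lam : ℝ) (h0 : 0 ≤ lam) (h1 : lam < 1) (n : ℕ) (T : GT (n + 1))
    (h : ∀ j, Good (margT 3 lam n (T.2 j)) (evT lam n (T.2 j))) :
    evT lam (n + 1) T = eD (fun j ξ i => lam * evT lam n (T.2 j) ξ i) := by
  funext η i
  have hs : ∀ (j : Fin T.1) (ξ : ConfT 3 n (T.2 j)) (i : Fin 3),
      -1 < lam * evT lam n (T.2 j) ξ i := by
    intro j ξ i
    have hge := (h j).ge ξ i
    nlinarith
  have hS := (sD_pos (fun (j : Fin T.1) ξ i => lam * evT lam n (T.2 j) ξ i) hs η).ne'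
  have hP : (∏ k : Fin T.1, margT 3 lam n (T.2 k) (η k)) ≠ 0 :=
    (Finset.prod_pos (fun k _ => (h k).pos (η k))).ne'
  have : evT lam (n + 1) T η i =
      3 * ((1 / ((3 : ℕ) : ℝ)) * likT 3 lam (n + 1) T i η / margT 3 lam (n + 1) T η) - 1 := rfl
  rw [this, margT_succ lam n T h, likT_succ lam n T h]
  simp only [wD, eD]
  push_cast
  field_simp

end Vale.Agent.P154
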