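import Vale.Agent.P154.GW.TreeTB

/-!
# P154, Galton-Watson: the experiment attached to a fixed tree

`evT lam n T η i = 3 * postT 3 lam n T i η - 1`.  Everything is as in `TreeBase.lean`, `TreeSucc.lean` (binary tree), with the product over the
`T.1` children of the root; `ConfT 3 (n+1) T = (j : Fin T.1) → ConfT 3 n (T.2 j)` definitionally, with the Pi `Fintype` instance.
* base: `ConfT 3 0 T = Fin 3`, `margT = 1/3`, `evT η i = 3 * 1{η = i} - 1`; `Good`; `Xf = 1`, `HfW = 0` (`hh = 0 / 0 = 0`), so `Inv`.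
* `likT n T i η = margT n T η * (1 + evT n T η i)` if `margT > 0`; message of a child: `∑ j, potts 3 lam i j * likT n t j ξ = margT n t ξ * (1 + lam * evT n t ξ i)`.
* hence `margT (n+1) T = wD (fun j => margT n (T.2 j)) (fun j ξ i => lam * evT n (T.2 j) ξ i)`, `evT (n+1) T = eD (...)`  (`Finset.prod_mul_distrib`).
* `treeT_good`: induction on `n` with `prodD_all`, `Good.scale`, `Good.scale_strict`, `Inv.scale`.
* `XK lam n k c` is `Xf` of the combination of the messages of the `k` trees `c j`.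
-/

namespace Vale.Agent.P154

open Finset

theorem Good.Xf_le_oneW {ι : Type} [Fintype ι] {w : ι → ℝ} {e : ι → Fin 3 → ℝ} (h : Good w e) :
    Xf w e ≤ 1 := by
  unfold Xf
  calc ∑ η, w η * al3 (e η 0) (e η 1) (e η 2) ≤ ∑ η, w η * 1 :=
        Finset.sum_le_sum fun η _ => mul_le_mul_of_nonneg_left
          (al3_le_one _ _ _ (h.zero η) (h.ge η 0) (h.ge η 1) (h.ge η 2)) (h.pos η).le
    _ = 1 := by simp only [mul_one]; exact h.tot

theorem treeT_good (lam : ℝ) (h0 : 0 ≤ lam) (h1 : lam < 1) (n : ℕ) (T : GT n) :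
    Good (margT 3 lam n T) (evT lam n T) ∧ Inv (margT 3 lam n T) (evT lam n T) := by
  induction n with
  | zero => exact ⟨baseT_good lam T, baseT_inv lam T⟩
  | succ n ih =>
    have hg : ∀ j, Good (margT 3 lam n (T.2 j)) (evT lam n (T.2 j)) := fun j => (ih (T.2 j)).1
    rw [margT_succ lam n T hg, evT_succ lam h0 h1 n T hg]
    exact prodD_all T.1 (fun j => ConfT 3 n (T.2 j)) (fun j => margT 3 lam n (T.2 j))
      (fun j ξ i => lam * evT lam n (T.2 j) ξ i) (fun j => (hg j).scale lam h0 h1.le)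
      (fun j η i => (hg j).scale_strict lam h0 h1 η i)
      (fun j => Inv.scale (hg j) (ih (T.2 j)).2 lam h0 h1)

theorem xT_succ (lam : ℝ) (h0 : 0 ≤ lam) (h1 : lam < 1) (n : ℕ) (T : GT (n + 1)) :
    xT lam (n + 1) T = XK lam n T.1 T.2 := by
  have hg : ∀ j, Good (margT 3 lam n (T.2 j)) (evT lam n (T.2 j)) :=
    fun j => (treeT_good lam h0 h1 n (T.2 j)).1
  unfold xT XK
  rw [margT_succ lam n T hg, evT_succ lam h0 h1 n T hg]
  rfl

theorem xT_nonneg (lam : ℝ) (h0 : 0 ≤ lam) (h1 : lam < 1) (n : ℕ) (T : GT n) : 0 ≤ xT lam n T :=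
  (treeT_good lam h0 h1 n T).1.Xf_nonneg

theorem xT_le_one (lam : ℝ) (h0 : 0 ≤ lam) (h1 : lam < 1) (n : ℕ) (T : GT n) : xT lam n T ≤ 1 :=
  (treeT_good lam h0 h1 n T).1.Xf_le_oneW

theorem XK_zero (lam : ℝ) (n : ℕ) (c : Fin 0 → GT n) : XK lam n 0 c = 0 :=
  (prodD_zero (F := fun j => ConfT 3 n (c j)) (fun j => margT 3 lam n (c j))
    (fun j ξ i => lam * evT lam n (c j) ξ i)).2.2

theorem XK_good (lam : ℝ) (h0 : 0 ≤ lam) (h1 : lam < 1) (n k : ℕ) (c : Fin k → GT n) :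
    Good (wD (fun j => margT 3 lam n (c j)) (fun j ξ i => lam * evT lam n (c j) ξ i))
      (eD (fun j ξ i => lam * evT lam n (c j) ξ i)) :=
  (prodD_all k (fun j => ConfT 3 n (c j)) (fun j => margT 3 lam n (c j))
    (fun j ξ i => lam * evT lam n (c j) ξ i)
    (fun j => (treeT_good lam h0 h1 n (c j)).1.scale lam h0 h1.le)
    (fun j η i => (treeT_good lam h0 h1 n (c j)).1.scale_strict lam h0 h1 η i)
    (fun j => Inv.scale (treeT_good lam h0 h1 n (c j)).1 (treeT_good lam h0 h1 n (c j)).2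
      lam h0 h1)).1

theorem XK_nonneg (lam : ℝ) (h0 : 0 ≤ lam) (h1 : lam < 1) (n k : ℕ) (c : Fin k → GT n) :
    0 ≤ XK lam n k c :=
  (XK_good lam h0 h1 n k c).Xf_nonneg

theorem XK_le_one (lam : ℝ) (h0 : 0 ≤ lam) (h1 : lam < 1) (n k : ℕ) (c : Fin k → GT n) :
    XK lam n k c ≤ 1 :=
  (XK_good lam h0 h1 n k c).Xf_le_oneW

theorem XK_succ (lam : ℝ) (h0 : 0 ≤ lam) (h1 : lam < 1) (n k : ℕ) (c : Fin (k + 1) → GT n) :
    XK lam n (k + 1) c ≤ lam ^ 2 * xT lam n (c 0) + XK lam n k (Fin.tail c)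
      - 1 / 10 * (lam ^ 2 * xT lam n (c 0)) * XK lam n k (Fin.tail c) := by
  have hst := prodD_step (F := fun j => ConfT 3 n (c j)) (fun j => margT 3 lam n (c j))
    (fun j ξ i => lam * evT lam n (c j) ξ i)
    (fun j => (treeT_good lam h0 h1 n (c j)).1.scale lam h0 h1.le)
    (fun j η i => (treeT_good lam h0 h1 n (c j)).1.scale_strict lam h0 h1 η i)
    (fun j => Inv.scale (treeT_good lam h0 h1 n (c j)).1 (treeT_good lam h0 h1 n (c j)).2
      lam h0 h1)
  have hsc : Xf (margT 3 lam n (c 0)) (fun ξ i => lam * evT lam n (c 0) ξ i)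
      = lam ^ 2 * xT lam n (c 0) := Xf_scale _ _ lam
  rw [hsc] at hst
  exact hst

/-- total variation on a fixed tree -/
theorem aT_sq_le (lam : ℝ) (h0 : 0 ≤ lam) (h1 : lam < 1) (n : ℕ) (T : GT n) :
    0 ≤ aT 3 lam n T ∧ aT 3 lam n T ^ 2 ≤ xT lam n T / 2 := by
  have hg := (treeT_good lam h0 h1 n T).1
  rw [aT_eq]
  refine ⟨?_, hg.tv_sq_le⟩
  refine Finset.sum_nonneg fun η _ => mul_nonneg (hg.pos η).le ?_
  positivity

end Vale.Agent.P154
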